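import Mathlib
import Vale.Agent.Lib.P037B.Defs
import Vale.Agent.Lib.P037B.Blow

/-!
# The corner pattern `[[0,1],[1,1]]`: definitions

Definitions for the polynomial removal bound for ordered copies of the 2 x 2 corner pattern.
A binary matrix is a function `Fin n → Fin n → Bool` (`true` is the entry 1).
-/

namespace Vale.Agent.Lib.P037G

open Finset Vale.Agent.Lib.P037B
open Classical

variable {n : ℕ}

/-- The corner pattern `[[0,1],[1,1]]`. -/
def G0 : Fin 2 → Fin 2 → Bool := ![![false, true], ![true, true]]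

/-- Rows `r1 < r2` and columns `a < b` of `A` carry an ordered copy of the corner pattern. -/
def Cop (A : Fin n → Fin n → Bool) (r1 r2 a b : Fin n) : Prop :=
  r1 < r2 ∧ a < b ∧ A r1 a = false ∧ A r1 b = true ∧ A r2 a = true ∧ A r2 b = true

/-- `B` has no ordered copy of the corner pattern. -/
def GFree (B : Fin n → Fin n → Bool) : Prop := ∀ r1 r2 a b, ¬ Cop B r1 r2 a b

/-- No copy of the corner pattern in `A` has both its rows in `P`. -/
def PFree (A : Fin n → Fin n → Bool) (P : Finset (Fin n)) : Prop :=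
  ∀ r1 ∈ P, ∀ r2 ∈ P, ∀ a b, ¬ Cop A r1 r2 a b

/-- The finset of all copies `(r1, r2, a, b)`. -/
noncomputable def copySet (A : Fin n → Fin n → Bool) : Finset (Fin n × Fin n × Fin n × Fin n) :=
  univ.filter (fun q => Cop A q.1 q.2.1 q.2.2.1 q.2.2.2)

/-- The number of copies. -/
noncomputable def NG (A : Fin n → Fin n → Bool) : ℕ := (copySet A).card

/-- The number of copies with at least one row in `P`. -/
noncomputable def XP (A : Fin n → Fin n → Bool) (P : Finset (Fin n)) : ℕ :=
  ((copySet A).filter (fun q => q.1 ∈ P ∨ q.2.1 ∈ P)).card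

/-- The number of copies with both rows in `P`. -/
noncomputable def WP (A : Fin n → Fin n → Bool) (P : Finset (Fin n)) : ℕ :=
  ((copySet A).filter (fun q => q.1 ∈ P ∧ q.2.1 ∈ P)).card

/-- The number of pairs of rows `u ≤ v`, both containing column `c`, with no row of `P`
containing `c` in `[u, v)`. -/
noncomputable def PhiC (A : Fin n → Fin n → Bool) (P : Finset (Fin n)) (c : Fin n) : ℕ :=
  (univ.filter (fun q : Fin n × Fin n => A q.1 c = true ∧ A q.2 c = true ∧ q.1 ≤ q.2 ∧
    ∀ ρ ∈ P, A ρ c = true → ¬ (q.1 ≤ ρ ∧ ρ < q.2))).card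

/-- Sum of `PhiC` over all columns. -/
noncomputable def PhiP (A : Fin n → Fin n → Bool) (P : Finset (Fin n)) : ℕ := ∑ c, PhiC A P c

/-- Replace the columns in `Z` by zero columns. -/
def zeroCols (A : Fin n → Fin n → Bool) (Z : Finset (Fin n)) : Fin n → Fin n → Bool :=
  fun r c => A r c && decide (c ∉ Z)

/-- `ρ` is the first row of `P` at or after level `t` that contains column `c`. -/
def IsFirst (A : Fin n → Fin n → Bool) (P : Finset (Fin n)) (t ρ c : Fin n) : Prop :=
  ρ ∈ P ∧ t ≤ ρ ∧ A ρ c = true ∧ ∀ ρ' ∈ P, t ≤ ρ' → A ρ' c = true → ρ ≤ ρ'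

/-- `a` is the parent of `c` at level `t`: the largest column left of `c` in the first row of
`P` at or after `t` that contains `c`. -/
def IsPar (A : Fin n → Fin n → Bool) (P : Finset (Fin n)) (t a c : Fin n) : Prop :=
  ∃ ρ, IsFirst A P t ρ c ∧ a < c ∧ A ρ a = true ∧ ∀ a', a' < c → A ρ a' = true → a' ≤ a

/-- `a` is an ancestor of `c` at level `t`. -/
def Anc (A : Fin n → Fin n → Bool) (P : Finset (Fin n)) (t a c : Fin n) : Prop :=
  Relation.TransGen (IsPar A P t) a c

/-- `U` is an admissible row for row index `r`: empty, or a column `b` with its ancestors at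
level `r`. -/
def RowOK (A : Fin n → Fin n → Bool) (P : Finset (Fin n)) (r : Fin n) (U : Fin n → Bool) : Prop :=
  (∀ c, U c = false) ∨ ∃ b, ∀ c, U c = true ↔ (c = b ∨ Anc A P r c b)

/-- The number of mismatch pairs `(a, c)` of row `r`: `c` in the row, `a < c`, and membership of
`a` in the row differs from `a` being an ancestor of `c` at level `r`. -/
noncomputable def vrow (A : Fin n → Fin n → Bool) (P : Finset (Fin n)) (r : Fin n) : ℕ :=
  (univ.filter (fun q : Fin n × Fin n => A r q.2 = true ∧ q.1 < q.2 ∧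
    ¬ (A r q.1 = true ↔ Anc A P r q.1 q.2))).card

end Vale.Agent.Lib.P037G
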