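import Mathlib
import Vale.Agent.Lib.P037G.Defs

/-!
# The corner pattern: zeroing columns

Replacing columns by zero columns creates no copy of the corner pattern, does not increase the
counting functions `XP` and `PhiP`, and changes at most `|Z| * n` entries.
-/

namespace Vale.Agent.Lib.P037G

open Finset Vale.Agent.Lib.P037B
open Classical

variable {n : ℕ}

theorem zeroCols_eq_true {A : Fin n → Fin n → Bool} {Z : Finset (Fin n)} {r c : Fin n} :
    zeroCols A Z r c = true ↔ A r c = true ∧ c ∉ Z := by
  simp [zeroCols]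

theorem zeroCols_of_notMem {A : Fin n → Fin n → Bool} {Z : Finset (Fin n)} {c : Fin n}
    (hc : c ∉ Z) (r : Fin n) : zeroCols A Z r c = A r c := by
  simp [zeroCols, hc]

theorem zeroCols_of_mem {A : Fin n → Fin n → Bool} {Z : Finset (Fin n)} {c : Fin n}
    (hc : c ∈ Z) (r : Fin n) : zeroCols A Z r c = false := by
  simp [zeroCols, hc]

theorem cop_zeroCols {A : Fin n → Fin n → Bool} {Z : Finset (Fin n)} {r1 r2 a b : Fin n}
    (h : Cop (zeroCols A Z) r1 r2 a b) : Cop A r1 r2 a b := by
  obtain ⟨h1, h2, h3, h4, h5, h6⟩ := h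
  have ha := zeroCols_eq_true.1 h5
  have hb := zeroCols_eq_true.1 h4
  have hb' := zeroCols_eq_true.1 h6
  refine ⟨h1, h2, ?_, hb.1, ha.1, hb'.1⟩
  rw [zeroCols_of_notMem ha.2] at h3
  exact h3

theorem copySet_zeroCols_subset (A : Fin n → Fin n → Bool) (Z : Finset (Fin n)) :
    copySet (zeroCols A Z) ⊆ copySet A := by
  intro q hq
  simp only [copySet, mem_filter, mem_univ, true_and] at hq ⊢
  exact cop_zeroCols hq

theorem XP_zeroCols_le (A : Fin n → Fin n → Bool) (Z P : Finset (Fin n)) :
    XP (zeroCols A Z) P ≤ XP A P := by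
  unfold XP
  exact card_le_card (filter_subset_filter _ (copySet_zeroCols_subset A Z))

theorem WP_zeroCols_le (A : Fin n → Fin n → Bool) (Z P : Finset (Fin n)) :
    WP (zeroCols A Z) P ≤ WP A P := by
  unfold WP
  exact card_le_card (filter_subset_filter _ (copySet_zeroCols_subset A Z))

theorem NG_zeroCols_le (A : Fin n → Fin n → Bool) (Z : Finset (Fin n)) :
    NG (zeroCols A Z) ≤ NG A := by
  unfold NG
  exact card_le_card (copySet_zeroCols_subset A Z)

theorem PhiC_zeroCols_le (A : Fin n → Fin n → Bool) (Z P : Finset (Fin n)) (c : Fin n) :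
    PhiC (zeroCols A Z) P c ≤ PhiC A P c := by
  by_cases hc : c ∈ Z
  · have : PhiC (zeroCols A Z) P c = 0 := by
      unfold PhiC
      rw [card_eq_zero, filter_eq_empty_iff]
      intro q _ hq
      rw [zeroCols_of_mem hc] at hq
      exact Bool.false_ne_true hq.1
    rw [this]
    exact Nat.zero_le _
  · have : PhiC (zeroCols A Z) P c = PhiC A P c := by
      unfold PhiC
      simp only [zeroCols_of_notMem hc]
    rw [this]

theorem PhiP_zeroCols_le (A : Fin n → Fin n → Bool) (Z P : Finset (Fin n)) :
    PhiP (zeroCols A Z) P ≤ PhiP A P := by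
  unfold PhiP
  exact sum_le_sum (fun c _ => PhiC_zeroCols_le A Z P c)

theorem entryDiff_zeroCols_le (A : Fin n → Fin n → Bool) (Z : Finset (Fin n)) :
    entryDiff A (zeroCols A Z) ≤ Z.card * n := by
  unfold entryDiff
  have hsub : (univ.filter (fun x : Fin n × Fin n => A x.1 x.2 ≠ zeroCols A Z x.1 x.2))
      ⊆ (univ : Finset (Fin n)) ×ˢ Z := by
    intro x hx
    simp only [mem_filter, mem_univ, true_and] at hx
    simp only [mem_product, mem_univ, true_and]
    by_contra hc
    exact hx (zeroCols_of_notMem hc x.1).symm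
  calc (univ.filter (fun x : Fin n × Fin n => A x.1 x.2 ≠ zeroCols A Z x.1 x.2)).card
      ≤ ((univ : Finset (Fin n)) ×ˢ Z).card := card_le_card hsub
    _ = Z.card * n := by
        rw [card_product, card_univ, Fintype.card_fin, Nat.mul_comm]

end Vale.Agent.Lib.P037G
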