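import Mathlib
import Vale.Agent.Lib.P037G.Defs
import Vale.Agent.Lib.P037G.ZeroCols

/-!
# The corner pattern: cleaning a row sample by zeroing columns

`cleaning`: for every set `P` of rows there is a set `Z` of columns with
`|Z|^2 ≤ 5 |P|^2 WP A P` such that zeroing the columns of `Z` leaves no copy with both rows in `P`.
(The facts that zeroing columns never creates copies and does not increase `XP` or `PhiP` are in
`ZeroCols.lean`.)
-/

namespace Vale.Agent.Lib.P037G

open Finset Vale.Agent.Lib.P037B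
open Classical

variable {n : ℕ}

/-- Two-set cut lemma: all pairs `r1 < r2` with `r1 ∈ Pa`, `r2 ∈ Pb` can be hit by a set `Z`
with `|Z|² ≤ 5 · #pairs`. -/
theorem cut_lemma {m : ℕ} (Pa Pb : Finset (Fin m)) :
    ∃ Z : Finset (Fin m),
      Z.card ^ 2 ≤ 5 * ((Pa ×ˢ Pb).filter (fun p => p.1 < p.2)).card ∧
      ∀ r1 ∈ Pa, ∀ r2 ∈ Pb, r1 < r2 → r1 ∈ Z ∨ r2 ∈ Z := by
  classical
  by_cases h0 : ((Pa ×ˢ Pb).filter (fun p => p.1 < p.2)).card = 0
  · refine ⟨∅, by simp, ?_⟩
    intro r1 h1 r2 h2 hlt
    exfalso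
    have hmem : (r1, r2) ∈ (Pa ×ˢ Pb).filter (fun p => p.1 < p.2) := by
      rw [Finset.mem_filter, Finset.mem_product]
      exact ⟨⟨h1, h2⟩, hlt⟩
    have hpos : 0 < ((Pa ×ˢ Pb).filter (fun p => p.1 < p.2)).card := Finset.card_pos.mpr ⟨_, hmem⟩
    omega
  · obtain ⟨aS, haS⟩ : ∃ aS : ℕ → Finset (Fin m), ∀ s, aS s = Pa.filter (fun r => r.val < s) :=
      ⟨_, fun _ => rfl⟩
    obtain ⟨bS, hbS⟩ : ∃ bS : ℕ → Finset (Fin m), ∀ s, bS s = Pb.filter (fun r => s ≤ r.val) :=
      ⟨_, fun _ => rfl⟩
    have hex : ∃ s, (bS s).card ≤ (aS s).card := by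
      refine ⟨m, ?_⟩
      have hempty : bS m = ∅ := by
        rw [hbS, Finset.filter_eq_empty_iff]
        intro r _ hr
        exact absurd r.isLt (not_lt.mpr hr)
      rw [hempty]
      simp
    have hs : (bS (Nat.find hex)).card ≤ (aS (Nat.find hex)).card := Nat.find_spec hex
    have hstep : ∀ s, 0 < s → (aS s).card ≤ (aS (s - 1)).card + 1 ∧
        (bS (s - 1)).card ≤ (bS s).card + 1 := by
      intro s hspos
      have hone : (Finset.univ.filter (fun r : Fin m => r.val = s - 1)).card ≤ 1 := by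
        apply Finset.card_le_one.mpr
        intro a ha b hb
        rw [Finset.mem_filter] at ha hb
        exact Fin.ext (by omega)
      constructor
      · have hsub : aS s ⊆ aS (s - 1) ∪ Finset.univ.filter (fun r : Fin m => r.val = s - 1) := by
          intro r hr
          rw [haS, Finset.mem_filter] at hr
          rw [Finset.mem_union, haS, Finset.mem_filter, Finset.mem_filter]
          by_cases h : r.val < s - 1
          · left; exact ⟨hr.1, h⟩
          · right; exact ⟨Finset.mem_univ _, by omega⟩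
        calc (aS s).card ≤ (aS (s - 1) ∪ Finset.univ.filter (fun r : Fin m => r.val = s - 1)).card :=
              Finset.card_le_card hsub
          _ ≤ (aS (s - 1)).card + (Finset.univ.filter (fun r : Fin m => r.val = s - 1)).card :=
              Finset.card_union_le _ _
          _ ≤ (aS (s - 1)).card + 1 := Nat.add_le_add_left hone _
      · have hsub : bS (s - 1) ⊆ bS s ∪ Finset.univ.filter (fun r : Fin m => r.val = s - 1) := by
          intro r hr
          rw [hbS, Finset.mem_filter] at hr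
          rw [Finset.mem_union, hbS, Finset.mem_filter, Finset.mem_filter]
          by_cases h : s ≤ r.val
          · left; exact ⟨hr.1, h⟩
          · right; exact ⟨Finset.mem_univ _, by omega⟩
        calc (bS (s - 1)).card ≤ (bS s ∪ Finset.univ.filter (fun r : Fin m => r.val = s - 1)).card :=
              Finset.card_le_card hsub
          _ ≤ (bS s).card + (Finset.univ.filter (fun r : Fin m => r.val = s - 1)).card :=
              Finset.card_union_le _ _
          _ ≤ (bS s).card + 1 := Nat.add_le_add_left hone _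
    have hle : (aS (Nat.find hex)).card ≤ (bS (Nat.find hex)).card + 1 := by
      rcases Nat.eq_zero_or_pos (Nat.find hex) with hs0 | hspos
      · have hempty : aS (Nat.find hex) = ∅ := by
          rw [haS, Finset.filter_eq_empty_iff]
          intro r _ hr
          omega
        rw [hempty]
        simp
      · have hmin : ¬ (bS (Nat.find hex - 1)).card ≤ (aS (Nat.find hex - 1)).card :=
          Nat.find_min hex (by omega)
        have h12 := hstep (Nat.find hex) hspos
        omega
    have hprod : (aS (Nat.find hex)).card * (bS (Nat.find hex)).card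
        ≤ ((Pa ×ˢ Pb).filter (fun p => p.1 < p.2)).card := by
      rw [← Finset.card_product]
      apply Finset.card_le_card
      intro p hp
      rw [Finset.mem_product, haS, hbS, Finset.mem_filter, Finset.mem_filter] at hp
      rw [Finset.mem_filter, Finset.mem_product]
      exact ⟨⟨hp.1.1, hp.2.1⟩, Fin.lt_def.mpr (lt_of_lt_of_le hp.1.2 hp.2.2)⟩
    refine ⟨aS (Nat.find hex) ∪ bS (Nat.find hex), ?_, ?_⟩
    · have hc : (aS (Nat.find hex) ∪ bS (Nat.find hex)).card
          ≤ (aS (Nat.find hex)).card + (bS (Nat.find hex)).card := Finset.card_union_le _ _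
      have hsq : ((aS (Nat.find hex)).card + (bS (Nat.find hex)).card) ^ 2
          ≤ 5 * ((Pa ×ˢ Pb).filter (fun p => p.1 < p.2)).card := by
        generalize (aS (Nat.find hex)).card = f at hs hle hprod
        generalize (bS (Nat.find hex)).card = g at hs hle hprod
        generalize ((Pa ×ˢ Pb).filter (fun p => p.1 < p.2)).card = N at h0 hprod
        rcases Nat.eq_zero_or_pos g with hg | hg
        · subst hg
          have hf : f ≤ 1 := by omega
          have hN : 1 ≤ N := by omega
          interval_cases f <;> omega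
        · have h1 : f ≤ f * g := Nat.le_mul_of_pos_right f hg
          nlinarith [Nat.mul_le_mul_right g hs, Nat.mul_le_mul_left f hle]
      exact le_trans (Nat.pow_le_pow_left hc 2) hsq
    · intro r1 h1 r2 h2 hlt
      by_cases hr : r1.val < Nat.find hex
      · left
        rw [Finset.mem_union, haS, Finset.mem_filter]
        exact Or.inl ⟨h1, hr⟩
      · right
        rw [Finset.mem_union, hbS, Finset.mem_filter]
        have := Fin.lt_def.mp hlt
        exact Or.inr ⟨h2, by omega⟩


/-- The copies on a fixed pair of rows, summed over pairs of rows of `P`, are at most `WP`. -/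
theorem sum_pairs_le_WP (A : Fin n → Fin n → Bool) (P : Finset (Fin n)) :
    ∑ p ∈ P ×ˢ P, (univ.filter (fun ab : Fin n × Fin n => Cop A p.1 p.2 ab.1 ab.2)).card
      ≤ WP A P := by
  unfold WP
  have hmaps : ((↑((copySet A).filter (fun q => q.1 ∈ P ∧ q.2.1 ∈ P)) :
      Set (Fin n × Fin n × Fin n × Fin n))).MapsTo
      (fun q : Fin n × Fin n × Fin n × Fin n => (q.1, q.2.1)) (↑(P ×ˢ P)) := by
    intro q hq
    rw [mem_coe, mem_filter] at hq
    rw [mem_coe, mem_product]
    exact ⟨hq.2.1, hq.2.2⟩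
  rw [card_eq_sum_card_fiberwise hmaps]
  refine sum_le_sum (fun p hp => ?_)
  rw [mem_product] at hp
  refine card_le_card_of_injOn (fun ab : Fin n × Fin n => (p.1, p.2, ab.1, ab.2)) ?_ ?_
  · intro ab hab
    rw [mem_coe, mem_filter] at hab
    rw [mem_coe, mem_filter, mem_filter]
    refine ⟨⟨?_, hp.1, hp.2⟩, rfl⟩
    unfold copySet
    rw [mem_filter]
    exact ⟨mem_univ _, hab.2⟩
  · intro x _ y _ hxy
    simp only [Prod.mk.injEq] at hxy
    exact Prod.ext hxy.2.2.1 hxy.2.2.2

/-- Cleaning: zeroing a small set of columns removes every copy with both rows in `P`. -/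
theorem cleaning (A : Fin n → Fin n → Bool) (P : Finset (Fin n)) :
    ∃ Z : Finset (Fin n), Z.card ^ 2 ≤ 5 * P.card ^ 2 * WP A P ∧ PFree (zeroCols A Z) P := by
  have key : ∀ p : Fin n × Fin n, ∃ Zp : Finset (Fin n),
      Zp.card ^ 2 ≤ 5 * (univ.filter (fun ab : Fin n × Fin n => Cop A p.1 p.2 ab.1 ab.2)).card ∧
      ∀ a b, Cop A p.1 p.2 a b → a ∈ Zp ∨ b ∈ Zp := by
    intro p
    by_cases hlt : p.1 < p.2
    · obtain ⟨Zp, hcard, hhit⟩ := cut_lemma
        (univ.filter (fun a : Fin n => A p.1 a = false ∧ A p.2 a = true))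
        (univ.filter (fun b : Fin n => A p.1 b = true ∧ A p.2 b = true))
      refine ⟨Zp, le_trans hcard (Nat.mul_le_mul_left 5 (card_le_card ?_)), ?_⟩
      · intro q hq
        rw [mem_filter, mem_product, mem_filter, mem_filter] at hq
        rw [mem_filter]
        exact ⟨mem_univ _, hlt, hq.2, hq.1.1.2.1, hq.1.2.2.1, hq.1.1.2.2, hq.1.2.2.2⟩
      · intro a b hcop
        obtain ⟨_, hab, h3, h4, h5, h6⟩ := hcop
        exact hhit a (mem_filter.mpr ⟨mem_univ _, h3, h5⟩) b
          (mem_filter.mpr ⟨mem_univ _, h4, h6⟩) hab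
    · exact ⟨∅, by simp, fun a b hcop => absurd hcop.1 hlt⟩
  choose Zf hZcard hZhit using key
  refine ⟨(P ×ˢ P).biUnion Zf, ?_, ?_⟩
  · have h1 : ((P ×ˢ P).biUnion Zf).card ≤ ∑ p ∈ P ×ˢ P, (Zf p).card := card_biUnion_le
    have h2 : (∑ p ∈ P ×ˢ P, (Zf p).card) ^ 2
        ≤ (P ×ˢ P).card * ∑ p ∈ P ×ˢ P, (Zf p).card ^ 2 := sq_sum_le_card_mul_sum_sq
    have h3 : ∑ p ∈ P ×ˢ P, (Zf p).card ^ 2
        ≤ ∑ p ∈ P ×ˢ P,
          5 * (univ.filter (fun ab : Fin n × Fin n => Cop A p.1 p.2 ab.1 ab.2)).card :=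
      sum_le_sum (fun p _ => hZcard p)
    have h4 := sum_pairs_le_WP A P
    rw [← mul_sum] at h3
    calc ((P ×ˢ P).biUnion Zf).card ^ 2 ≤ (∑ p ∈ P ×ˢ P, (Zf p).card) ^ 2 :=
          Nat.pow_le_pow_left h1 2
      _ ≤ (P ×ˢ P).card * ∑ p ∈ P ×ˢ P, (Zf p).card ^ 2 := h2
      _ ≤ (P ×ˢ P).card * (5 * WP A P) :=
          Nat.mul_le_mul_left _ (le_trans h3 (Nat.mul_le_mul_left 5 h4))
      _ = 5 * P.card ^ 2 * WP A P := by rw [card_product]; ring
  · intro r1 hr1 r2 hr2 a b hcop
    have hA := cop_zeroCols hcop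
    obtain ⟨_, _, _, _, h5, h6⟩ := hcop
    simp only [zeroCols, Bool.and_eq_true, decide_eq_true_eq] at h5 h6
    rcases hZhit (r1, r2) a b hA with h | h
    · exact h5.2 (mem_biUnion.mpr ⟨(r1, r2), mem_product.mpr ⟨hr1, hr2⟩, h⟩)
    · exact h6.2 (mem_biUnion.mpr ⟨(r1, r2), mem_product.mpr ⟨hr1, hr2⟩, h⟩)

end Vale.Agent.Lib.P037G
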