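import Mathlib
import Vale.Agent.Lib.P037G.Defs

/-!
# The corner pattern: bridge to the quadruple count of `P037B`

`Cop` is `Quad G0`, `NG` is `qcount G0`, and `GFree` is the absence of quadruple copies of `G0`.
-/

namespace Vale.Agent.Lib.P037G

open Finset Vale.Agent.Lib.P037B
open Classical

variable {n : ℕ}

theorem quad_G0_iff (A : Fin n → Fin n → Bool) (r1 r2 a b : Fin n) :
    Quad G0 A r1 r2 a b ↔ Cop A r1 r2 a b := by
  unfold Quad G0 Cop
  simp

theorem NG_eq_qcount (A : Fin n → Fin n → Bool) : NG A = qcount G0 A := by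
  unfold NG qcount copySet
  rw [← Set.ncard_coe_finset]
  congr 1
  ext x
  simp [quad_G0_iff]

theorem gfree_iff (B : Fin n → Fin n → Bool) :
    GFree B ↔ ∀ r1 r2 c1 c2, ¬ Quad G0 B r1 r2 c1 c2 := by
  unfold GFree
  simp only [quad_G0_iff]

end Vale.Agent.Lib.P037G
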