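import Mathlib
import Vale.Agent.Lib.P037G.Defs

/-!
# The corner pattern: the cost of rounding one row

Every row can be replaced by an admissible row (empty, or a column with its ancestors) at a
cost of at most `2 (sqrt v + 1)` entries, where `v` is the number of mismatch pairs of the row.
-/

namespace Vale.Agent.Lib.P037G

open Finset Vale.Agent.Lib.P037B
open Classical

variable {n : ℕ}

/-- An ancestor lies to the left (local copy, so that this file only needs the definitions). -/
theorem anc_lt_cost {A : Fin n → Fin n → Bool} {P : Finset (Fin n)} {t a c : Fin n}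
    (h : Anc A P t a c) : a < c := by
  induction h with
  | single h1 =>
    obtain ⟨-, -, hlt, -⟩ := h1
    exact hlt
  | tail _ h2 ih =>
    obtain ⟨-, -, hlt, -⟩ := h2
    exact lt_trans ih hlt

/-- The number of mismatches of column `c` in row `r`: the columns `a < c` whose membership in
the row differs from being an ancestor of `c` at level `r`. -/
noncomputable def mis (A : Fin n → Fin n → Bool) (P : Finset (Fin n)) (r c : Fin n) : ℕ :=
  (univ.filter (fun a : Fin n => a < c ∧ ¬ (A r a = true ↔ Anc A P r a c))).card

theorem vrow_eq_sum (A : Fin n → Fin n → Bool) (P : Finset (Fin n)) (r : Fin n) :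
    vrow A P r = ∑ c ∈ univ.filter (fun c : Fin n => A r c = true), mis A P r c := by
  unfold vrow mis
  rw [Finset.card_filter, Fintype.sum_prod_type, Finset.sum_comm, Finset.sum_filter]
  apply Finset.sum_congr rfl
  intro c _
  by_cases hc : A r c = true
  · rw [if_pos hc, Finset.card_filter]
    apply Finset.sum_congr rfl
    intro a _
    simp [hc]
  · rw [if_neg hc]
    apply Finset.sum_eq_zero
    intro a _
    simp [hc]

theorem card_mul_le_vrow (A : Fin n → Fin n → Bool) (P : Finset (Fin n)) (r : Fin n) (m : ℕ)
    (T : Finset (Fin n)) (hT : ∀ c ∈ T, A r c = true ∧ m ≤ mis A P r c) :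
    T.card * m ≤ vrow A P r := by
  rw [vrow_eq_sum]
  have h1 : T.card * m ≤ ∑ c ∈ T, mis A P r c := by
    rw [← smul_eq_mul, ← Finset.sum_const]
    exact Finset.sum_le_sum (fun c hc => (hT c hc).2)
  have h2 : ∑ c ∈ T, mis A P r c ≤
      ∑ c ∈ univ.filter (fun c : Fin n => A r c = true), mis A P r c := by
    apply Finset.sum_le_sum_of_subset
    intro c hc
    exact Finset.mem_filter.2 ⟨Finset.mem_univ _, (hT c hc).1⟩
  exact le_trans h1 h2

theorem row_cost (A : Fin n → Fin n → Bool) (P : Finset (Fin n)) (r : Fin n) :
    ∃ U : Fin n → Bool, RowOK A P r U ∧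
      (univ.filter (fun c => A r c ≠ U c)).card ≤ 2 * (Nat.sqrt (vrow A P r) + 1) := by
  have hv : vrow A P r < (Nat.sqrt (vrow A P r) + 1) * (Nat.sqrt (vrow A P r) + 1) :=
    Nat.lt_succ_sqrt (vrow A P r)
  generalize hm : Nat.sqrt (vrow A P r) + 1 = m at hv
  have key : ∀ T : Finset (Fin n), (∀ c ∈ T, A r c = true ∧ m ≤ mis A P r c) → T.card < m := by
    intro T hT
    have h := card_mul_le_vrow A P r m T hT
    by_contra hcon
    push_neg at hcon
    have : m * m ≤ T.card * m := Nat.mul_le_mul_right m hcon
    omega
  by_cases hgood : ((univ.filter (fun c : Fin n => A r c = true)).filter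
      (fun c => mis A P r c < m)).Nonempty
  · -- round to the largest good column and its ancestors
    have hbmem := Finset.max'_mem _ hgood
    set b := ((univ.filter (fun c : Fin n => A r c = true)).filter
      (fun c => mis A P r c < m)).max' hgood with hb
    obtain ⟨hbS, hbm⟩ := Finset.mem_filter.1 hbmem
    have hbA : A r b = true := (Finset.mem_filter.1 hbS).2
    refine ⟨fun c => decide (c = b ∨ Anc A P r c b), Or.inr ⟨b, fun c => by simp⟩, ?_⟩
    have hsub : univ.filter (fun c => A r c ≠ decide (c = b ∨ Anc A P r c b)) ⊆
        (univ.filter (fun c : Fin n => A r c = true ∧ b < c)) ∪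
          univ.filter (fun a : Fin n => a < b ∧ ¬ (A r a = true ↔ Anc A P r a b)) := by
      intro c hc
      have hne : A r c ≠ decide (c = b ∨ Anc A P r c b) := (Finset.mem_filter.1 hc).2
      rcases lt_trichotomy c b with hlt | heq | hgt
      · apply Finset.mem_union_right
        refine Finset.mem_filter.2 ⟨Finset.mem_univ _, hlt, ?_⟩
        intro hiff
        apply hne
        have hcb : c ≠ b := ne_of_lt hlt
        by_cases hanc : Anc A P r c b
        · rw [hiff.2 hanc]
          simp [hanc]
        · have hAc : A r c = false := by
            cases h : A r c with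
            | false => rfl
            | true => exact absurd (hiff.1 h) hanc
          rw [hAc]
          simp [hcb, hanc]
      · exfalso
        apply hne
        rw [heq, hbA]
        simp
      · apply Finset.mem_union_left
        refine Finset.mem_filter.2 ⟨Finset.mem_univ _, ?_, hgt⟩
        have hcb : c ≠ b := ne_of_gt hgt
        have hanc : ¬ Anc A P r c b := fun h => absurd (anc_lt_cost h) (not_lt.2 (le_of_lt hgt))
        have hU : decide (c = b ∨ Anc A P r c b) = false := by simp [hcb, hanc]
        rw [hU] at hne
        cases h : A r c with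
        | false => exact absurd h hne
        | true => rfl
    have h1 : (univ.filter (fun c : Fin n => A r c = true ∧ b < c)).card < m := by
      apply key
      intro c hc
      obtain ⟨-, hcA, hbc⟩ := Finset.mem_filter.1 hc
      refine ⟨hcA, ?_⟩
      by_contra hlt
      push_neg at hlt
      have hmem : c ∈ (univ.filter (fun c : Fin n => A r c = true)).filter
          (fun c => mis A P r c < m) :=
        Finset.mem_filter.2 ⟨Finset.mem_filter.2 ⟨Finset.mem_univ _, hcA⟩, hlt⟩
      have hle := Finset.le_max' _ c hmem
      exact absurd hbc (not_lt.2 hle)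
    have h2 : (univ.filter (fun a : Fin n => a < b ∧ ¬ (A r a = true ↔ Anc A P r a b))).card
        < m := hbm
    have h3 := Finset.card_le_card hsub
    have h4 := Finset.card_union_le (univ.filter (fun c : Fin n => A r c = true ∧ b < c))
      (univ.filter (fun a : Fin n => a < b ∧ ¬ (A r a = true ↔ Anc A P r a b)))
    refine le_trans h3 (le_trans h4 ?_)
    omega
  · -- the row is small: round to the empty row
    refine ⟨fun _ => false, Or.inl (fun _ => rfl), ?_⟩
    have h1 : (univ.filter (fun c : Fin n => A r c = true)).card < m := by
      apply key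
      intro c hc
      have hcA : A r c = true := (Finset.mem_filter.1 hc).2
      refine ⟨hcA, ?_⟩
      by_contra hlt
      push_neg at hlt
      exact hgood ⟨c, Finset.mem_filter.2 ⟨hc, hlt⟩⟩
    have h2 : univ.filter (fun c => A r c ≠ false) = univ.filter (fun c : Fin n => A r c = true) := by
      apply Finset.filter_congr
      intro c _
      cases A r c <;> simp
    rw [h2]
    omega

end Vale.Agent.Lib.P037G
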