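import Mathlib
import Vale.Agent.Lib.P037G.Defs

/-!
# The corner pattern: basic facts about the ancestor relation
-/

namespace Vale.Agent.Lib.P037G

open Finset Vale.Agent.Lib.P037B
open Classical

variable {n : ℕ}

theorem isPar_lt {A : Fin n → Fin n → Bool} {P : Finset (Fin n)} {t a c : Fin n}
    (h : IsPar A P t a c) : a < c := by
  obtain ⟨ρ, -, h, -⟩ := h
  exact h

theorem isFirst_unique {A : Fin n → Fin n → Bool} {P : Finset (Fin n)} {t ρ ρ' c : Fin n}
    (h : IsFirst A P t ρ c) (h' : IsFirst A P t ρ' c) : ρ = ρ' :=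
  le_antisymm (h.2.2.2 ρ' h'.1 h'.2.1 h'.2.2.1) (h'.2.2.2 ρ h.1 h.2.1 h.2.2.1)

theorem isPar_unique {A : Fin n → Fin n → Bool} {P : Finset (Fin n)} {t a a' c : Fin n}
    (h : IsPar A P t a c) (h' : IsPar A P t a' c) : a = a' := by
  obtain ⟨ρ, hρ, h1, h2, h3⟩ := h
  obtain ⟨ρ', hρ', h1', h2', h3'⟩ := h'
  have e : ρ = ρ' := isFirst_unique hρ hρ'
  subst e
  exact le_antisymm (h3' a h1 h2) (h3 a' h1' h2')

theorem exists_isFirst {A : Fin n → Fin n → Bool} {P : Finset (Fin n)} {t c : Fin n}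
    (h : ∃ ρ ∈ P, t ≤ ρ ∧ A ρ c = true) : ∃ ρ, IsFirst A P t ρ c := by
  have hne : (P.filter (fun ρ => t ≤ ρ ∧ A ρ c = true)).Nonempty := by
    obtain ⟨ρ, h1, h2⟩ := h
    exact ⟨ρ, Finset.mem_filter.mpr ⟨h1, h2⟩⟩
  have hmem := Finset.min'_mem _ hne
  rw [Finset.mem_filter] at hmem
  refine ⟨(P.filter (fun ρ => t ≤ ρ ∧ A ρ c = true)).min' hne, hmem.1, hmem.2.1, hmem.2.2, ?_⟩
  intro ρ' h1 h2 h3
  exact Finset.min'_le _ _ (Finset.mem_filter.mpr ⟨h1, h2, h3⟩)

theorem exists_isPar {A : Fin n → Fin n → Bool} {P : Finset (Fin n)} {t ρ a c : Fin n}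
    (hρ : IsFirst A P t ρ c) (hac : a < c) (ha : A ρ a = true) :
    ∃ b, IsPar A P t b c ∧ a ≤ b ∧ A ρ b = true := by
  have hne : (univ.filter (fun x : Fin n => x < c ∧ A ρ x = true)).Nonempty :=
    ⟨a, Finset.mem_filter.mpr ⟨Finset.mem_univ _, hac, ha⟩⟩
  have hmem := Finset.max'_mem _ hne
  rw [Finset.mem_filter] at hmem
  refine ⟨(univ.filter (fun x : Fin n => x < c ∧ A ρ x = true)).max' hne,
    ⟨ρ, hρ, hmem.2.1, hmem.2.2, ?_⟩, ?_, hmem.2.2⟩
  · intro a' h1 h2
    exact Finset.le_max' _ _ (Finset.mem_filter.mpr ⟨Finset.mem_univ _, h1, h2⟩)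
  · exact Finset.le_max' _ _ (Finset.mem_filter.mpr ⟨Finset.mem_univ _, hac, ha⟩)

theorem anc_lt {A : Fin n → Fin n → Bool} {P : Finset (Fin n)} {t a c : Fin n}
    (h : Anc A P t a c) : a < c := by
  unfold Anc at h
  induction h with
  | single h => exact isPar_lt h
  | tail _ h2 ih => exact lt_trans ih (isPar_lt h2)

theorem anc_trans {A : Fin n → Fin n → Bool} {P : Finset (Fin n)} {t a b c : Fin n}
    (h1 : Anc A P t a b) (h2 : Anc A P t b c) : Anc A P t a c :=
  Relation.TransGen.trans h1 h2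

theorem anc_tail {A : Fin n → Fin n → Bool} {P : Finset (Fin n)} {t a c : Fin n}
    (h : Anc A P t a c) : ∃ x, IsPar A P t x c ∧ (a = x ∨ Anc A P t a x) := by
  unfold Anc at h
  cases h with
  | single h => exact ⟨a, h, Or.inl rfl⟩
  | tail h1 h2 => exact ⟨_, h2, Or.inr h1⟩

theorem anc_first {A : Fin n → Fin n → Bool} {P : Finset (Fin n)} {t a c : Fin n}
    (h : Anc A P t a c) : ∃ ρ, IsFirst A P t ρ c := by
  obtain ⟨x, ⟨ρ, hρ, -⟩, -⟩ := anc_tail h
  exact ⟨ρ, hρ⟩

theorem anc_chain_aux {A : Fin n → Fin n → Bool} {P : Finset (Fin n)} {t : Fin n} :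
    ∀ (m : ℕ) (b0 a b : Fin n), b0.val = m →
      (a = b0 ∨ Anc A P t a b0) → (b = b0 ∨ Anc A P t b b0) → a < b → Anc A P t a b := by
  intro m
  induction m using Nat.strong_induction_on with
  | _ m ih =>
    intro b0 a b hm ha hb hab
    rcases hb with hb | hb
    · rcases ha with ha | ha
      · rw [ha, hb] at hab
        exact absurd hab (lt_irrefl _)
      · rw [hb]
        exact ha
    · rcases ha with ha | ha
      · rw [ha] at hab
        exact absurd (anc_lt hb) (not_lt.mpr hab.le)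
      · obtain ⟨x, hx, hax⟩ := anc_tail ha
        obtain ⟨x', hx', hbx⟩ := anc_tail hb
        have hxx : x' = x := isPar_unique hx' hx
        rw [hxx] at hbx
        exact ih x.val (by rw [← hm]; exact isPar_lt hx) x a b rfl hax hbx hab

theorem anc_chain {A : Fin n → Fin n → Bool} {P : Finset (Fin n)} {t a b b0 : Fin n}
    (ha : a = b0 ∨ Anc A P t a b0) (hb : b = b0 ∨ Anc A P t b b0) (hab : a < b) :
    Anc A P t a b :=
  anc_chain_aux b0.val b0 a b rfl ha hb hab

theorem anc_F1_aux {A : Fin n → Fin n → Bool} {P : Finset (Fin n)} (hP : PFree A P)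
    {t : Fin n} : ∀ (m : ℕ) (c ρ a : Fin n), c.val = m → IsFirst A P t ρ c → a < c →
      A ρ a = true → Anc A P t a c := by
  intro m
  induction m using Nat.strong_induction_on with
  | _ m ih =>
    intro c ρ a hm hρ hac ha
    obtain ⟨b, hbpar, hab, hρb⟩ := exists_isPar hρ hac ha
    have hbc : b < c := isPar_lt hbpar
    rcases eq_or_lt_of_le hab with h | h
    · rw [h]
      exact Relation.TransGen.single hbpar
    · obtain ⟨ρ1, hρ1⟩ := exists_isFirst (A := A) (P := P) (t := t) (c := b)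
        ⟨ρ, hρ.1, hρ.2.1, hρb⟩
      have hle : ρ1 ≤ ρ := hρ1.2.2.2 ρ hρ.1 hρ.2.1 hρb
      have hρ1a : A ρ1 a = true := by
        rcases eq_or_lt_of_le hle with e | e
        · rw [e]; exact ha
        · by_contra hcon
          have hf : A ρ1 a = false := by simpa using hcon
          exact hP ρ1 hρ1.1 ρ hρ.1 a b ⟨e, h, hf, hρ1.2.2.1, ha, hρb⟩
      have hanc : Anc A P t a b := ih b.val (by rw [← hm]; exact hbc) b ρ1 a rfl hρ1 h hρ1a
      exact Relation.TransGen.tail hanc hbpar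

theorem anc_F1 {A : Fin n → Fin n → Bool} {P : Finset (Fin n)} (hP : PFree A P)
    {t ρ a c : Fin n} (hρ : IsFirst A P t ρ c) (hac : a < c) (ha : A ρ a = true) :
    Anc A P t a c :=
  anc_F1_aux hP c.val c ρ a rfl hρ hac ha

end Vale.Agent.Lib.P037G
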