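import Mathlib
import Vale.Agent.Lib.P037G.Defs
import Vale.Agent.Lib.P037G.Forest

/-!
# The corner pattern: ancestors across levels, and freeness of chain matrices
-/

namespace Vale.Agent.Lib.P037G

open Finset Vale.Agent.Lib.P037B
open Classical

variable {n : ℕ}

theorem par_F2 {A : Fin n → Fin n → Bool} {P : Finset (Fin n)} (hP : PFree A P)
    {t ρ b c : Fin n} (hρ : ρ ∈ P) (hρt : ρ < t) (hc : A ρ c = true) (h : IsPar A P t b c) :
    A ρ b = true := by
  obtain ⟨ρ0, hρ0, hbc, hb, -⟩ := h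
  by_contra hcon
  have hf : A ρ b = false := by simpa using hcon
  exact hP ρ hρ ρ0 hρ0.1 b c ⟨lt_of_lt_of_le hρt hρ0.2.1, hbc, hf, hc, hb, hρ0.2.2.1⟩

theorem anc_F2 {A : Fin n → Fin n → Bool} {P : Finset (Fin n)} (hP : PFree A P)
    {t ρ a c : Fin n} (hρ : ρ ∈ P) (hρt : ρ < t) (hc : A ρ c = true) (h : Anc A P t a c) :
    A ρ a = true := by
  unfold Anc at h
  induction h with
  | single h => exact par_F2 hP hρ hρt hc h
  | tail h1 h2 ih => exact ih (par_F2 hP hρ hρt hc h2)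

theorem par_dec {A : Fin n → Fin n → Bool} {P : Finset (Fin n)} (hP : PFree A P)
    {t t' b c : Fin n} (htt : t ≤ t') (h : IsPar A P t' b c) : Anc A P t b c := by
  obtain ⟨ρ', hρ', hbc, hb, -⟩ := h
  obtain ⟨ρ, hρ⟩ := exists_isFirst (A := A) (P := P) (t := t) (c := c)
    ⟨ρ', hρ'.1, le_trans htt hρ'.2.1, hρ'.2.2.1⟩
  have hle : ρ ≤ ρ' := hρ.2.2.2 ρ' hρ'.1 (le_trans htt hρ'.2.1) hρ'.2.2.1
  have hρb : A ρ b = true := by
    rcases eq_or_lt_of_le hle with e | e
    · rw [e]; exact hb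
    · by_contra hcon
      have hf : A ρ b = false := by simpa using hcon
      exact hP ρ hρ.1 ρ' hρ'.1 b c ⟨e, hbc, hf, hρ.2.2.1, hb, hρ'.2.2.1⟩
  exact anc_F1 hP hρ hbc hρb

theorem anc_dec {A : Fin n → Fin n → Bool} {P : Finset (Fin n)} (hP : PFree A P)
    {t t' a c : Fin n} (htt : t ≤ t') (h : Anc A P t' a c) : Anc A P t a c := by
  unfold Anc at h
  induction h with
  | single h => exact par_dec hP htt h
  | tail h1 h2 ih => exact anc_trans ih (par_dec hP htt h2)

theorem gfree_of_rows {A : Fin n → Fin n → Bool} {P : Finset (Fin n)} (hP : PFree A P)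
    (B : Fin n → Fin n → Bool) (hB : ∀ r, RowOK A P r (B r)) : GFree B := by
  rintro r1 r2 a b ⟨hr, hab, h1, h2, h3, h4⟩
  rcases hB r2 with h0 | ⟨b2, hb2⟩
  · rw [h0 a] at h3
    exact Bool.false_ne_true h3
  · have ha2 := (hb2 a).mp h3
    have hb2' := (hb2 b).mp h4
    have hanc2 : Anc A P r2 a b := anc_chain ha2 hb2' hab
    have hanc1 : Anc A P r1 a b := anc_dec hP hr.le hanc2
    rcases hB r1 with h0 | ⟨b1, hb1⟩
    · rw [h0 b] at h2
      exact Bool.false_ne_true h2
    · have hbb := (hb1 b).mp h2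
      have hab1 : Anc A P r1 a b1 := by
        rcases hbb with e | e
        · rw [← e]; exact hanc1
        · exact anc_trans hanc1 e
      have : B r1 a = true := (hb1 a).mpr (Or.inr hab1)
      rw [h1] at this
      exact Bool.false_ne_true this

end Vale.Agent.Lib.P037G
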