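import Mathlib
import Vale.Agent.Lib.P037G.Defs
import Vale.Agent.Lib.P037G.Forest
import Vale.Agent.Lib.P037G.ForestB

/-!
# The corner pattern: the mismatch bound

The total number of mismatch pairs over all rows is bounded by the number of copies with a row
in the anchor set `P` plus a term controlled by `PhiC`.
-/

namespace Vale.Agent.Lib.P037G

open Finset Vale.Agent.Lib.P037B
open Classical

variable {n : ℕ}

/-- A family of rows that is pairwise unseparated in column `c` has at most `√(2 Φ_c)` rows. -/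
theorem card_le_sqrt_PhiC (A : Fin n → Fin n → Bool) (P : Finset (Fin n)) (c : Fin n)
    (K : Finset (Fin n))
    (hK : ∀ u ∈ K, ∀ v ∈ K, u ≤ v → A u c = true ∧ A v c = true ∧
      ∀ ρ ∈ P, A ρ c = true → ¬ (u ≤ ρ ∧ ρ < v)) :
    K.card ≤ Nat.sqrt (2 * PhiC A P c) := by
  rw [Nat.le_sqrt']
  obtain ⟨F, hF⟩ : ∃ F : Finset (Fin n × Fin n), F = univ.filter (fun q : Fin n × Fin n =>
      A q.1 c = true ∧ A q.2 c = true ∧ q.1 ≤ q.2 ∧
      ∀ ρ ∈ P, A ρ c = true → ¬ (q.1 ≤ ρ ∧ ρ < q.2)) := ⟨_, rfl⟩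
  have hPhi : PhiC A P c = F.card := by rw [hF]; rfl
  obtain ⟨F1, hF1⟩ : ∃ F1 : Finset (Fin n × Fin n),
      F1 = (K ×ˢ K).filter (fun q : Fin n × Fin n => q.1 ≤ q.2) := ⟨_, rfl⟩
  obtain ⟨F2, hF2⟩ : ∃ F2 : Finset (Fin n × Fin n),
      F2 = (K ×ˢ K).filter (fun q : Fin n × Fin n => q.2 ≤ q.1) := ⟨_, rfl⟩
  have h1 : F1.card ≤ F.card := by
    apply Finset.card_le_card
    intro q hq
    rw [hF1, Finset.mem_filter, Finset.mem_product] at hq
    obtain ⟨⟨hu, hv⟩, huv⟩ := hq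
    obtain ⟨a1, a2, a3⟩ := hK q.1 hu q.2 hv huv
    rw [hF, Finset.mem_filter]
    exact ⟨Finset.mem_univ _, a1, a2, huv, a3⟩
  have h2 : F2.card ≤ F.card := by
    refine Finset.card_le_card_of_injOn Prod.swap (fun q hq => ?_)
      (fun x _ y _ hxy => Prod.swap_injective hxy)
    have hq' : q ∈ F2 := hq
    rw [hF2, Finset.mem_filter, Finset.mem_product] at hq'
    obtain ⟨⟨hu, hv⟩, huv⟩ := hq'
    obtain ⟨a1, a2, a3⟩ := hK q.2 hv q.1 hu huv
    show Prod.swap q ∈ F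
    rw [hF, Finset.mem_filter]
    exact ⟨Finset.mem_univ _, a1, a2, huv, a3⟩
  have h3 : K.card ^ 2 ≤ F1.card + F2.card := by
    have hsub : K ×ˢ K ⊆ F1 ∪ F2 := by
      intro q hq
      rw [Finset.mem_union, hF1, hF2, Finset.mem_filter, Finset.mem_filter]
      rcases le_total q.1 q.2 with h | h
      · exact Or.inl ⟨hq, h⟩
      · exact Or.inr ⟨hq, h⟩
    calc K.card ^ 2 = (K ×ˢ K).card := by rw [Finset.card_product, sq]
      _ ≤ (F1 ∪ F2).card := Finset.card_le_card hsub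
      _ ≤ F1.card + F2.card := Finset.card_union_le _ _
  rw [hPhi]; omega

/-- Counting triples `(r, a, c)` whose row lies in a small set depending on `(a, c)`. -/
theorem card_triples_le (T : Finset (Fin n × Fin n × Fin n))
    (K : Fin n → Fin n → Finset (Fin n)) (g : Fin n → ℕ) (hK : ∀ a c, (K a c).card ≤ g c)
    (hT : ∀ q ∈ T, q.1 ∈ K q.2.1 q.2.2) : T.card ≤ n * ∑ c, g c := by
  have hsub : T ⊆ (univ : Finset (Fin n × Fin n)).biUnion
      (fun ac => (K ac.1 ac.2).image (fun r => (r, ac.1, ac.2))) := by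
    intro q hq
    rw [Finset.mem_biUnion]
    refine ⟨(q.2.1, q.2.2), Finset.mem_univ _, ?_⟩
    rw [Finset.mem_image]
    exact ⟨q.1, hT q hq, rfl⟩
  calc T.card ≤ ((univ : Finset (Fin n × Fin n)).biUnion
        (fun ac => (K ac.1 ac.2).image (fun r => (r, ac.1, ac.2)))).card :=
        Finset.card_le_card hsub
    _ ≤ ∑ ac : Fin n × Fin n, ((K ac.1 ac.2).image (fun r => (r, ac.1, ac.2))).card :=
        Finset.card_biUnion_le
    _ ≤ ∑ ac : Fin n × Fin n, g ac.2 := by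
        apply Finset.sum_le_sum
        intro ac _
        exact le_trans Finset.card_image_le (hK ac.1 ac.2)
    _ = n * ∑ c, g c := by
        rw [Fintype.sum_prod_type]
        simp

/-- Classification of a mismatch triple. -/
theorem classify {A : Fin n → Fin n → Bool} {P : Finset (Fin n)} (hP : PFree A P)
    (r a c : Fin n) (hc : A r c = true) (hac : a < c)
    (hmis : ¬ (A r a = true ↔ Anc A P r a c)) :
    (∃ ρ ∈ P, Cop A r ρ a c) ∨ (∃ ρ ∈ P, Cop A ρ r a c) ∨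
    (∀ ρ ∈ P, A ρ c = true → ¬ ρ < r) ∨ (∀ ρ ∈ P, A ρ c = true → ¬ r ≤ ρ) ∨
    (∃ prv ∈ P, ∃ nxt ∈ P, prv < r ∧ r ≤ nxt ∧ A prv c = true ∧ A nxt c = true ∧
      A prv a = true ∧ A nxt a = false ∧ ∀ ρ ∈ P, A ρ c = true → ¬ (prv < ρ ∧ ρ < nxt)) := by
  by_cases hN : ∃ ρ ∈ P, r ≤ ρ ∧ A ρ c = true
  · have hne : (P.filter (fun ρ => r ≤ ρ ∧ A ρ c = true)).Nonempty := by
      obtain ⟨ρ, h1, h2⟩ := hN
      exact ⟨ρ, Finset.mem_filter.mpr ⟨h1, h2⟩⟩
    obtain ⟨nxt, hnxt⟩ : ∃ nxt, nxt = (P.filter (fun ρ => r ≤ ρ ∧ A ρ c = true)).min' hne :=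
      ⟨_, rfl⟩
    have hmem := Finset.min'_mem _ hne
    rw [← hnxt, Finset.mem_filter] at hmem
    obtain ⟨hnP, hrn, hnc⟩ := hmem
    have hmin : ∀ ρ' ∈ P, r ≤ ρ' → A ρ' c = true → nxt ≤ ρ' := by
      intro ρ' h1 h2 h3
      rw [hnxt]
      exact Finset.min'_le _ _ (Finset.mem_filter.mpr ⟨h1, h2, h3⟩)
    have hF : IsFirst A P r nxt c := ⟨hnP, hrn, hnc, hmin⟩
    by_cases hna : A nxt a = true
    · have hanc : Anc A P r a c := anc_F1 hP hF hac hna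
      have hra : A r a = false := by
        by_contra h
        have h' : A r a = true := by simpa using h
        exact hmis ⟨fun _ => hanc, fun _ => h'⟩
      have hne' : r ≠ nxt := by
        intro h
        rw [← h, hra] at hna
        exact Bool.false_ne_true hna
      left
      exact ⟨nxt, hnP, lt_of_le_of_ne hrn hne', hac, hra, hc, hna, hnc⟩
    · have hna' : A nxt a = false := by simpa using hna
      by_cases hPr : ∃ ρ ∈ P, ρ < r ∧ A ρ c = true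
      · have hne2 : (P.filter (fun ρ => ρ < r ∧ A ρ c = true)).Nonempty := by
          obtain ⟨ρ, h1, h2⟩ := hPr
          exact ⟨ρ, Finset.mem_filter.mpr ⟨h1, h2⟩⟩
        obtain ⟨prv, hprv⟩ : ∃ prv, prv = (P.filter (fun ρ => ρ < r ∧ A ρ c = true)).max' hne2 :=
          ⟨_, rfl⟩
        have hmem2 := Finset.max'_mem _ hne2
        rw [← hprv, Finset.mem_filter] at hmem2
        obtain ⟨hpP, hpr, hpc⟩ := hmem2
        have hmax : ∀ ρ' ∈ P, ρ' < r → A ρ' c = true → ρ' ≤ prv := by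
          intro ρ' h1 h2 h3
          rw [hprv]
          exact Finset.le_max' _ _ (Finset.mem_filter.mpr ⟨h1, h2, h3⟩)
        by_cases hpa : A prv a = true
        · right; right; right; right
          refine ⟨prv, hpP, nxt, hnP, hpr, hrn, hpc, hnc, hpa, hna', ?_⟩
          rintro ρ hρ hρc ⟨h1, h2⟩
          rcases lt_or_ge ρ r with h | h
          · exact absurd (hmax ρ hρ h hρc) (not_le.mpr h1)
          · exact absurd (hmin ρ hρ h hρc) (not_le.mpr h2)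
        · have hpa' : A prv a = false := by simpa using hpa
          have hnanc : ¬ Anc A P r a c := fun h => hpa (anc_F2 hP hpP hpr hpc h)
          have hra : A r a = true := by
            by_contra h
            exact hmis ⟨fun h' => absurd h' h, fun h' => absurd h' hnanc⟩
          right; left
          exact ⟨prv, hpP, hpr, hac, hpa', hpc, hra, hc⟩
      · right; right; left
        intro ρ hρ hρc hlt
        exact hPr ⟨ρ, hρ, hlt, hρc⟩
  · right; right; right; left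
    intro ρ hρ hρc hle
    exact hN ⟨ρ, hρ, hle, hρc⟩

theorem T1_bound (A : Fin n → Fin n → Bool) (P : Finset (Fin n))
    (T : Finset (Fin n × Fin n × Fin n)) (hT : ∀ q ∈ T, ∃ ρ ∈ P, Cop A q.1 ρ q.2.1 q.2.2) :
    T.card ≤ XP A P := by
  unfold XP
  have hsub : T ⊆ ((copySet A).filter (fun q => q.1 ∈ P ∨ q.2.1 ∈ P)).image
      (fun q : Fin n × Fin n × Fin n × Fin n => (q.1, q.2.2.1, q.2.2.2)) := by
    intro q hq
    obtain ⟨ρ, hρ, hcop⟩ := hT q hq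
    rw [Finset.mem_image]
    refine ⟨(q.1, ρ, q.2.1, q.2.2), ?_, rfl⟩
    rw [Finset.mem_filter]
    refine ⟨?_, Or.inr hρ⟩
    unfold copySet
    rw [Finset.mem_filter]
    exact ⟨Finset.mem_univ _, hcop⟩
  exact le_trans (Finset.card_le_card hsub) Finset.card_image_le

theorem T2_bound (A : Fin n → Fin n → Bool) (P : Finset (Fin n))
    (T : Finset (Fin n × Fin n × Fin n)) (hT : ∀ q ∈ T, ∃ ρ ∈ P, Cop A ρ q.1 q.2.1 q.2.2) :
    T.card ≤ XP A P := by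
  unfold XP
  have hsub : T ⊆ ((copySet A).filter (fun q => q.1 ∈ P ∨ q.2.1 ∈ P)).image
      (fun q : Fin n × Fin n × Fin n × Fin n => (q.2.1, q.2.2.1, q.2.2.2)) := by
    intro q hq
    obtain ⟨ρ, hρ, hcop⟩ := hT q hq
    rw [Finset.mem_image]
    refine ⟨(ρ, q.1, q.2.1, q.2.2), ?_, rfl⟩
    rw [Finset.mem_filter]
    refine ⟨?_, Or.inl hρ⟩
    unfold copySet
    rw [Finset.mem_filter]
    exact ⟨Finset.mem_univ _, hcop⟩
  exact le_trans (Finset.card_le_card hsub) Finset.card_image_le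

theorem T3_bound (A : Fin n → Fin n → Bool) (P : Finset (Fin n))
    (T : Finset (Fin n × Fin n × Fin n))
    (hT : ∀ q ∈ T, A q.1 q.2.2 = true ∧ ∀ ρ ∈ P, A ρ q.2.2 = true → ¬ ρ < q.1) :
    T.card ≤ n * ∑ c, Nat.sqrt (2 * PhiC A P c) := by
  apply card_triples_le T
    (fun _ c => univ.filter (fun r => A r c = true ∧ ∀ ρ ∈ P, A ρ c = true → ¬ ρ < r))
  · intro a c
    apply card_le_sqrt_PhiC
    intro u hu v hv huv
    simp only [Finset.mem_filter, Finset.mem_univ, true_and] at hu hv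
    refine ⟨hu.1, hv.1, ?_⟩
    intro ρ hρ hρc h
    exact hv.2 ρ hρ hρc h.2
  · intro q hq
    simp only [Finset.mem_filter, Finset.mem_univ, true_and]
    exact hT q hq

theorem T4_bound (A : Fin n → Fin n → Bool) (P : Finset (Fin n))
    (T : Finset (Fin n × Fin n × Fin n))
    (hT : ∀ q ∈ T, A q.1 q.2.2 = true ∧ ∀ ρ ∈ P, A ρ q.2.2 = true → ¬ q.1 ≤ ρ) :
    T.card ≤ n * ∑ c, Nat.sqrt (2 * PhiC A P c) := by
  apply card_triples_le T
    (fun _ c => univ.filter (fun r => A r c = true ∧ ∀ ρ ∈ P, A ρ c = true → ¬ r ≤ ρ))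
  · intro a c
    apply card_le_sqrt_PhiC
    intro u hu v hv huv
    simp only [Finset.mem_filter, Finset.mem_univ, true_and] at hu hv
    refine ⟨hu.1, hv.1, ?_⟩
    intro ρ hρ hρc h
    exact hu.2 ρ hρ hρc h.1
  · intro q hq
    simp only [Finset.mem_filter, Finset.mem_univ, true_and]
    exact hT q hq

theorem T5_bound {A : Fin n → Fin n → Bool} {P : Finset (Fin n)} (hP : PFree A P)
    (T : Finset (Fin n × Fin n × Fin n))
    (hT : ∀ q ∈ T, q.2.1 < q.2.2 ∧ A q.1 q.2.2 = true ∧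
      ∃ prv ∈ P, ∃ nxt ∈ P, prv < q.1 ∧ q.1 ≤ nxt ∧ A prv q.2.2 = true ∧ A nxt q.2.2 = true ∧
        A prv q.2.1 = true ∧ A nxt q.2.1 = false ∧
        ∀ ρ ∈ P, A ρ q.2.2 = true → ¬ (prv < ρ ∧ ρ < nxt)) :
    T.card ≤ n * ∑ c, Nat.sqrt (2 * PhiC A P c) := by
  apply card_triples_le T
    (fun a c => univ.filter (fun r => a < c ∧ A r c = true ∧
      ∃ prv ∈ P, ∃ nxt ∈ P, prv < r ∧ r ≤ nxt ∧ A prv c = true ∧ A nxt c = true ∧
        A prv a = true ∧ A nxt a = false ∧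
        ∀ ρ ∈ P, A ρ c = true → ¬ (prv < ρ ∧ ρ < nxt)))
  · intro a c
    apply card_le_sqrt_PhiC
    intro u hu v hv huv
    simp only [Finset.mem_filter, Finset.mem_univ, true_and] at hu hv
    obtain ⟨hac, huc, pu, hpu, nu, hnu, h1u, h2u, h3u, h4u, h5u, h6u, h7u⟩ := hu
    obtain ⟨-, hvc, pv, hpv, nv, hnv, h1v, h2v, h3v, h4v, h5v, h6v, h7v⟩ := hv
    refine ⟨huc, hvc, ?_⟩
    rintro ρ hρ hρc ⟨hu1, hv1⟩
    have hA : nu ≤ ρ := by
      by_contra h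
      exact h7u ρ hρ hρc ⟨lt_of_lt_of_le h1u hu1, not_le.mp h⟩
    have hB : ρ ≤ pv := by
      by_contra h
      exact h7v ρ hρ hρc ⟨not_le.mp h, lt_of_lt_of_le hv1 h2v⟩
    have hne : nu ≠ pv := by
      intro h
      rw [h, h5v] at h6u
      exact Bool.noConfusion h6u
    exact hP nu hnu pv hpv a c ⟨lt_of_le_of_ne (le_trans hA hB) hne, hac, h6u, h4u, h5v, h3v⟩
  · intro q hq
    simp only [Finset.mem_filter, Finset.mem_univ, true_and]
    exact hT q hq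

/-- **Mismatch bound.** -/
theorem mismatch_bound {A : Fin n → Fin n → Bool} {P : Finset (Fin n)} (hP : PFree A P) :
    ∑ r, vrow A P r ≤ 2 * XP A P + 3 * n * ∑ c, Nat.sqrt (2 * PhiC A P c) := by
  obtain ⟨V, hV⟩ : ∃ V : Finset (Fin n × Fin n × Fin n), V = univ.filter
      (fun q : Fin n × Fin n × Fin n => A q.1 q.2.2 = true ∧ q.2.1 < q.2.2 ∧
        ¬ (A q.1 q.2.1 = true ↔ Anc A P q.1 q.2.1 q.2.2)) := ⟨_, rfl⟩
  have h0 : ∑ r, vrow A P r = V.card := by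
    rw [hV, Finset.card_filter, Fintype.sum_prod_type]
    apply Finset.sum_congr rfl
    intro r _
    unfold vrow
    rw [Finset.card_filter]
  have hVmem : ∀ q ∈ V, A q.1 q.2.2 = true ∧ q.2.1 < q.2.2 ∧
      ¬ (A q.1 q.2.1 = true ↔ Anc A P q.1 q.2.1 q.2.2) := by
    intro q hq
    rw [hV, Finset.mem_filter] at hq
    exact hq.2
  have hcover : V ⊆ V.filter (fun q => ∃ ρ ∈ P, Cop A q.1 ρ q.2.1 q.2.2) ∪
      (V.filter (fun q => ∃ ρ ∈ P, Cop A ρ q.1 q.2.1 q.2.2) ∪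
      (V.filter (fun q => ∀ ρ ∈ P, A ρ q.2.2 = true → ¬ ρ < q.1) ∪
      (V.filter (fun q => ∀ ρ ∈ P, A ρ q.2.2 = true → ¬ q.1 ≤ ρ) ∪
      V.filter (fun q => ∃ prv ∈ P, ∃ nxt ∈ P, prv < q.1 ∧ q.1 ≤ nxt ∧ A prv q.2.2 = true ∧
        A nxt q.2.2 = true ∧ A prv q.2.1 = true ∧ A nxt q.2.1 = false ∧
        ∀ ρ ∈ P, A ρ q.2.2 = true → ¬ (prv < ρ ∧ ρ < nxt))))) := by
    intro q hq
    obtain ⟨h1, h2, h3⟩ := hVmem q hq
    simp only [Finset.mem_union, Finset.mem_filter]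
    rcases classify hP q.1 q.2.1 q.2.2 h1 h2 h3 with h | h | h | h | h
    · exact Or.inl ⟨hq, h⟩
    · exact Or.inr (Or.inl ⟨hq, h⟩)
    · exact Or.inr (Or.inr (Or.inl ⟨hq, h⟩))
    · exact Or.inr (Or.inr (Or.inr (Or.inl ⟨hq, h⟩)))
    · exact Or.inr (Or.inr (Or.inr (Or.inr ⟨hq, h⟩)))
  have hb1 := T1_bound A P (V.filter (fun q => ∃ ρ ∈ P, Cop A q.1 ρ q.2.1 q.2.2))
    (fun q hq => (Finset.mem_filter.mp hq).2)
  have hb2 := T2_bound A P (V.filter (fun q => ∃ ρ ∈ P, Cop A ρ q.1 q.2.1 q.2.2))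
    (fun q hq => (Finset.mem_filter.mp hq).2)
  have hb3 := T3_bound A P (V.filter (fun q => ∀ ρ ∈ P, A ρ q.2.2 = true → ¬ ρ < q.1))
    (fun q hq => ⟨(hVmem q (Finset.mem_filter.mp hq).1).1, (Finset.mem_filter.mp hq).2⟩)
  have hb4 := T4_bound A P (V.filter (fun q => ∀ ρ ∈ P, A ρ q.2.2 = true → ¬ q.1 ≤ ρ))
    (fun q hq => ⟨(hVmem q (Finset.mem_filter.mp hq).1).1, (Finset.mem_filter.mp hq).2⟩)
  have hb5 := T5_bound hP (V.filter (fun q => ∃ prv ∈ P, ∃ nxt ∈ P, prv < q.1 ∧ q.1 ≤ nxt ∧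
        A prv q.2.2 = true ∧
        A nxt q.2.2 = true ∧ A prv q.2.1 = true ∧ A nxt q.2.1 = false ∧
        ∀ ρ ∈ P, A ρ q.2.2 = true → ¬ (prv < ρ ∧ ρ < nxt)))
    (fun q hq => ⟨(hVmem q (Finset.mem_filter.mp hq).1).2.1,
      (hVmem q (Finset.mem_filter.mp hq).1).1, (Finset.mem_filter.mp hq).2⟩)
  rw [h0]
  have hc := Finset.card_le_card hcover
  have u1 := Finset.card_union_le (V.filter (fun q => ∃ ρ ∈ P, Cop A q.1 ρ q.2.1 q.2.2))
      (V.filter (fun q => ∃ ρ ∈ P, Cop A ρ q.1 q.2.1 q.2.2) ∪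
      (V.filter (fun q => ∀ ρ ∈ P, A ρ q.2.2 = true → ¬ ρ < q.1) ∪
      (V.filter (fun q => ∀ ρ ∈ P, A ρ q.2.2 = true → ¬ q.1 ≤ ρ) ∪
      V.filter (fun q => ∃ prv ∈ P, ∃ nxt ∈ P, prv < q.1 ∧ q.1 ≤ nxt ∧ A prv q.2.2 = true ∧
        A nxt q.2.2 = true ∧ A prv q.2.1 = true ∧ A nxt q.2.1 = false ∧
        ∀ ρ ∈ P, A ρ q.2.2 = true → ¬ (prv < ρ ∧ ρ < nxt)))))
  have u2 := Finset.card_union_le (V.filter (fun q => ∃ ρ ∈ P, Cop A ρ q.1 q.2.1 q.2.2))
      (V.filter (fun q => ∀ ρ ∈ P, A ρ q.2.2 = true → ¬ ρ < q.1) ∪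
      (V.filter (fun q => ∀ ρ ∈ P, A ρ q.2.2 = true → ¬ q.1 ≤ ρ) ∪
      V.filter (fun q => ∃ prv ∈ P, ∃ nxt ∈ P, prv < q.1 ∧ q.1 ≤ nxt ∧ A prv q.2.2 = true ∧
        A nxt q.2.2 = true ∧ A prv q.2.1 = true ∧ A nxt q.2.1 = false ∧
        ∀ ρ ∈ P, A ρ q.2.2 = true → ¬ (prv < ρ ∧ ρ < nxt))))
  have u3 := Finset.card_union_le (V.filter (fun q => ∀ ρ ∈ P, A ρ q.2.2 = true → ¬ ρ < q.1))
      (V.filter (fun q => ∀ ρ ∈ P, A ρ q.2.2 = true → ¬ q.1 ≤ ρ) ∪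
      V.filter (fun q => ∃ prv ∈ P, ∃ nxt ∈ P, prv < q.1 ∧ q.1 ≤ nxt ∧ A prv q.2.2 = true ∧
        A nxt q.2.2 = true ∧ A prv q.2.1 = true ∧ A nxt q.2.1 = false ∧
        ∀ ρ ∈ P, A ρ q.2.2 = true → ¬ (prv < ρ ∧ ρ < nxt)))
  have u4 := Finset.card_union_le (V.filter (fun q => ∀ ρ ∈ P, A ρ q.2.2 = true → ¬ q.1 ≤ ρ))
      (V.filter (fun q => ∃ prv ∈ P, ∃ nxt ∈ P, prv < q.1 ∧ q.1 ≤ nxt ∧ A prv q.2.2 = true ∧
        A nxt q.2.2 = true ∧ A prv q.2.1 = true ∧ A nxt q.2.1 = false ∧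
        ∀ ρ ∈ P, A ρ q.2.2 = true → ¬ (prv < ρ ∧ ρ < nxt)))
  have e : 3 * n * ∑ c, Nat.sqrt (2 * PhiC A P c)
      = 3 * (n * ∑ c, Nat.sqrt (2 * PhiC A P c)) := by ring
  rw [e]
  omega

end Vale.Agent.Lib.P037G
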