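import Mathlib
import Vale.Agent.Lib.P037G.Defs
import Vale.Agent.Lib.P037G.Forest
import Vale.Agent.Lib.P037G.ForestB
import Vale.Agent.Lib.P037G.Cost
import Vale.Agent.Lib.P037G.Mismatch

/-!
# The corner pattern: the main combinatorial lemma

If no copy of the corner pattern has both rows in `P`, the matrix is close to a matrix with no
copy at all, with distance controlled by `XP` and `PhiP`.
-/

namespace Vale.Agent.Lib.P037G

open Finset Vale.Agent.Lib.P037B
open Classical

variable {n : ℕ}

theorem main_comb {A : Fin n → Fin n → Bool} {P : Finset (Fin n)} (hP : PFree A P) :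
    ∃ B : Fin n → Fin n → Bool, GFree B ∧
      entryDiff A B ≤ 2 * n +
        2 * Nat.sqrt (n * (2 * XP A P + 3 * n * Nat.sqrt (2 * n * PhiP A P))) := by
  choose U hU hcost using row_cost A P
  refine ⟨fun r => U r, gfree_of_rows hP _ hU, ?_⟩
  have h1 : entryDiff A (fun r => U r) = ∑ r, (univ.filter (fun c => A r c ≠ U r c)).card := by
    unfold entryDiff
    rw [Finset.card_filter, Fintype.sum_prod_type]
    apply Finset.sum_congr rfl
    intro r _
    rw [Finset.card_filter]
  have h2 : ∑ r, (univ.filter (fun c => A r c ≠ U r c)).card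
      ≤ 2 * n + 2 * ∑ r, Nat.sqrt (vrow A P r) := by
    calc ∑ r, (univ.filter (fun c => A r c ≠ U r c)).card
        ≤ ∑ r : Fin n, 2 * (Nat.sqrt (vrow A P r) + 1) := Finset.sum_le_sum (fun r _ => hcost r)
      _ = 2 * n + 2 * ∑ r, Nat.sqrt (vrow A P r) := by
        rw [← Finset.mul_sum, Finset.sum_add_distrib]
        simp
        ring
  have h3 : (∑ r, Nat.sqrt (vrow A P r)) ^ 2 ≤ n * ∑ r, vrow A P r := by
    have h := sq_sum_le_card_mul_sum_sq (s := (univ : Finset (Fin n)))
      (f := fun r => Nat.sqrt (vrow A P r))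
    calc (∑ r, Nat.sqrt (vrow A P r)) ^ 2
        ≤ (univ : Finset (Fin n)).card * ∑ r, Nat.sqrt (vrow A P r) ^ 2 := h
      _ ≤ n * ∑ r, vrow A P r := by
        rw [Finset.card_univ, Fintype.card_fin]
        apply Nat.mul_le_mul_left
        apply Finset.sum_le_sum
        intro r _
        exact Nat.sqrt_le' _
  have h5 : ∑ c, Nat.sqrt (2 * PhiC A P c) ≤ Nat.sqrt (2 * n * PhiP A P) := by
    rw [Nat.le_sqrt']
    have h := sq_sum_le_card_mul_sum_sq (s := (univ : Finset (Fin n)))
      (f := fun c => Nat.sqrt (2 * PhiC A P c))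
    calc (∑ c, Nat.sqrt (2 * PhiC A P c)) ^ 2
        ≤ (univ : Finset (Fin n)).card * ∑ c, Nat.sqrt (2 * PhiC A P c) ^ 2 := h
      _ ≤ n * ∑ c, 2 * PhiC A P c := by
        rw [Finset.card_univ, Fintype.card_fin]
        apply Nat.mul_le_mul_left
        apply Finset.sum_le_sum
        intro c _
        exact Nat.sqrt_le' _
      _ = 2 * n * PhiP A P := by
        unfold PhiP
        rw [← Finset.mul_sum]
        ring
  have h6 : ∑ r, Nat.sqrt (vrow A P r)
      ≤ Nat.sqrt (n * (2 * XP A P + 3 * n * Nat.sqrt (2 * n * PhiP A P))) := by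
    rw [Nat.le_sqrt']
    calc (∑ r, Nat.sqrt (vrow A P r)) ^ 2 ≤ n * ∑ r, vrow A P r := h3
      _ ≤ n * (2 * XP A P + 3 * n * ∑ c, Nat.sqrt (2 * PhiC A P c)) :=
        Nat.mul_le_mul_left _ (mismatch_bound hP)
      _ ≤ n * (2 * XP A P + 3 * n * Nat.sqrt (2 * n * PhiP A P)) := by
        apply Nat.mul_le_mul_left
        apply Nat.add_le_add_left
        exact Nat.mul_le_mul_left _ h5
  rw [h1]
  omega

end Vale.Agent.Lib.P037G
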