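import Mathlib
import Vale.Agent.Lib.P037G.Defs

/-!
# The corner pattern: averaging `XP` and `WP` over samples of rows

For a uniformly random `p`-tuple `σ` of rows, the expected number of copies with a row in the
sample is at most `2 p N / n`, and the expected number of copies with both rows in the sample is
at most `p² N / n²`.
-/

namespace Vale.Agent.Lib.P037G

open Finset Vale.Agent.Lib.P037B
open Classical

variable {n : ℕ}

/-- The number of `p`-tuples with prescribed values on a set `I` of coordinates. -/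
theorem card_prescribed {p : ℕ} (I : Finset (Fin p)) (f : Fin p → Fin n) :
    (univ.filter (fun σ : Fin p → Fin n => ∀ k ∈ I, σ k = f k)).card * n ^ I.card = n ^ p := by
  have hset : univ.filter (fun σ : Fin p → Fin n => ∀ k ∈ I, σ k = f k)
      = Fintype.piFinset (fun k => if k ∈ I then ({f k} : Finset (Fin n)) else univ) := by
    ext σ
    simp only [mem_filter, mem_univ, true_and, Fintype.mem_piFinset]
    constructor
    · intro h k
      by_cases hk : k ∈ I
      · simp [hk, h k hk]
      · simp [hk]
    · intro h k hk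
      have := h k
      simpa [hk] using this
  rw [hset, Fintype.card_piFinset]
  have h1 : ∀ k : Fin p, (if k ∈ I then ({f k} : Finset (Fin n)) else univ).card
      = if k ∈ I then 1 else n := by
    intro k
    by_cases hk : k ∈ I <;> simp [hk]
  simp only [h1]
  have h2 : n ^ I.card = ∏ k : Fin p, (if k ∈ I then n else 1) := by
    rw [prod_ite_mem, univ_inter, prod_const]
  rw [h2, ← prod_mul_distrib]
  have h3 : ∀ k : Fin p, (if k ∈ I then 1 else n) * (if k ∈ I then n else 1) = n := by
    intro k
    by_cases hk : k ∈ I <;> simp [hk]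
  simp only [h3]
  simp

/-- The number of `p`-tuples with a prescribed value at one coordinate. -/
theorem card_fix_one {p : ℕ} (i : Fin p) (r : Fin n) :
    (univ.filter (fun σ : Fin p → Fin n => σ i = r)).card * n = n ^ p := by
  have h := card_prescribed ({i} : Finset (Fin p)) (fun _ => r)
  simpa using h

/-- The number of `p`-tuples with prescribed values at two distinct coordinates. -/
theorem card_fix_two {p : ℕ} (i j : Fin p) (hij : i ≠ j) (r1 r2 : Fin n) :
    (univ.filter (fun σ : Fin p → Fin n => σ i = r1 ∧ σ j = r2)).card * n ^ 2 = n ^ p := by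
  have h := card_prescribed ({i, j} : Finset (Fin p)) (fun k => if k = i then r1 else r2)
  rw [card_pair hij] at h
  have hset : univ.filter (fun σ : Fin p → Fin n => σ i = r1 ∧ σ j = r2)
      = univ.filter (fun σ : Fin p → Fin n =>
          ∀ k ∈ ({i, j} : Finset (Fin p)), σ k = if k = i then r1 else r2) := by
    ext σ
    simp only [mem_filter, mem_univ, true_and, mem_insert, mem_singleton]
    constructor
    · rintro ⟨h1, h2⟩ k (rfl | rfl)
      · simp [h1]
      · simp [h2, hij.symm]
    · intro h
      refine ⟨?_, ?_⟩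
      · simpa using h i (Or.inl rfl)
      · simpa [hij.symm] using h j (Or.inr rfl)
  rw [hset]
  exact h

theorem avg_X (A : Fin n → Fin n → Bool) (p : ℕ) :
    (∑ σ : Fin p → Fin n, XP A (univ.image σ)) * n ≤ 2 * p * NG A * n ^ p := by
  have key : ∀ σ : Fin p → Fin n, XP A (univ.image σ) ≤
      ∑ q ∈ copySet A, ∑ i : Fin p,
        ((if σ i = q.1 then 1 else 0) + (if σ i = q.2.1 then 1 else 0)) := by
    intro σ
    unfold XP
    rw [card_filter]
    apply sum_le_sum
    intro q _
    split_ifs with h
    · rcases h with h | h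
      · obtain ⟨i, -, hi⟩ := mem_image.1 h
        have h1 : (1 : ℕ) ≤ (if σ i = q.1 then 1 else 0) + (if σ i = q.2.1 then 1 else 0) := by
          simp [hi]
        exact h1.trans (single_le_sum
          (f := fun i : Fin p => (if σ i = q.1 then 1 else 0) + (if σ i = q.2.1 then 1 else 0))
          (fun _ _ => Nat.zero_le _) (mem_univ i))
      · obtain ⟨i, -, hi⟩ := mem_image.1 h
        have h1 : (1 : ℕ) ≤ (if σ i = q.1 then 1 else 0) + (if σ i = q.2.1 then 1 else 0) := by
          simp [hi]
        exact h1.trans (single_le_sum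
          (f := fun i : Fin p => (if σ i = q.1 then 1 else 0) + (if σ i = q.2.1 then 1 else 0))
          (fun _ _ => Nat.zero_le _) (mem_univ i))
    · exact Nat.zero_le _
  have hcount : ∀ (i : Fin p) (r : Fin n),
      (∑ σ : Fin p → Fin n, (if σ i = r then 1 else 0)) * n = n ^ p := by
    intro i r
    rw [← card_filter]
    exact card_fix_one i r
  calc (∑ σ : Fin p → Fin n, XP A (univ.image σ)) * n
      ≤ (∑ σ : Fin p → Fin n, ∑ q ∈ copySet A, ∑ i : Fin p,
          ((if σ i = q.1 then 1 else 0) + (if σ i = q.2.1 then 1 else 0))) * n :=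
        Nat.mul_le_mul_right _ (sum_le_sum (fun σ _ => key σ))
    _ = ∑ q ∈ copySet A, ∑ i : Fin p,
          ((∑ σ : Fin p → Fin n, (if σ i = q.1 then 1 else 0)) * n
            + (∑ σ : Fin p → Fin n, (if σ i = q.2.1 then 1 else 0)) * n) := by
        rw [sum_comm, sum_mul]
        refine sum_congr rfl (fun q _ => ?_)
        rw [sum_comm, sum_mul]
        refine sum_congr rfl (fun i _ => ?_)
        rw [sum_add_distrib, add_mul]
    _ = ∑ q ∈ copySet A, ∑ i : Fin p, (n ^ p + n ^ p) := by
        refine sum_congr rfl (fun q _ => sum_congr rfl (fun i _ => ?_))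
        rw [hcount, hcount]
    _ = 2 * p * NG A * n ^ p := by
        simp only [sum_const, card_univ, Fintype.card_fin, smul_eq_mul, NG]
        ring

theorem avg_W (A : Fin n → Fin n → Bool) (p : ℕ) :
    (∑ σ : Fin p → Fin n, WP A (univ.image σ)) * n ^ 2 ≤ p ^ 2 * NG A * n ^ p := by
  have key : ∀ σ : Fin p → Fin n, WP A (univ.image σ) ≤
      ∑ q ∈ copySet A, ∑ x : Fin p × Fin p,
        (if σ x.1 = q.1 ∧ σ x.2 = q.2.1 then 1 else 0) := by
    intro σ
    unfold WP
    rw [card_filter]
    apply sum_le_sum
    intro q _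
    split_ifs with h
    · obtain ⟨i, -, hi⟩ := mem_image.1 h.1
      obtain ⟨j, -, hj⟩ := mem_image.1 h.2
      have h1 : (1 : ℕ) ≤ (if σ (i, j).1 = q.1 ∧ σ (i, j).2 = q.2.1 then 1 else 0) := by
        simp [hi, hj]
      exact h1.trans (single_le_sum
        (f := fun x : Fin p × Fin p => (if σ x.1 = q.1 ∧ σ x.2 = q.2.1 then 1 else 0))
        (fun _ _ => Nat.zero_le _) (mem_univ (i, j)))
    · exact Nat.zero_le _
  have hcount : ∀ q ∈ copySet A, ∀ x : Fin p × Fin p,
      (∑ σ : Fin p → Fin n, (if σ x.1 = q.1 ∧ σ x.2 = q.2.1 then 1 else 0)) * n ^ 2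
        ≤ n ^ p := by
    intro q hq x
    have hlt : q.1 < q.2.1 := by
      have := (mem_filter.1 hq).2
      exact this.1
    rw [← card_filter]
    by_cases hx : x.1 = x.2
    · have hempty : univ.filter (fun σ : Fin p → Fin n => σ x.1 = q.1 ∧ σ x.2 = q.2.1) = ∅ := by
        rw [filter_eq_empty_iff]
        rintro σ - ⟨h1, h2⟩
        rw [hx] at h1
        rw [h1] at h2
        exact (ne_of_lt hlt) h2
      rw [hempty]
      simp
    · exact (card_fix_two x.1 x.2 hx q.1 q.2.1).le
  calc (∑ σ : Fin p → Fin n, WP A (univ.image σ)) * n ^ 2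
      ≤ (∑ σ : Fin p → Fin n, ∑ q ∈ copySet A, ∑ x : Fin p × Fin p,
          (if σ x.1 = q.1 ∧ σ x.2 = q.2.1 then 1 else 0)) * n ^ 2 :=
        Nat.mul_le_mul_right _ (sum_le_sum (fun σ _ => key σ))
    _ = ∑ q ∈ copySet A, ∑ x : Fin p × Fin p,
          (∑ σ : Fin p → Fin n, (if σ x.1 = q.1 ∧ σ x.2 = q.2.1 then 1 else 0)) * n ^ 2 := by
        rw [sum_comm, sum_mul]
        refine sum_congr rfl (fun q _ => ?_)
        rw [sum_comm, sum_mul]
    _ ≤ ∑ q ∈ copySet A, ∑ _x : Fin p × Fin p, n ^ p :=
        sum_le_sum (fun q hq => sum_le_sum (fun x _ => hcount q hq x))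
    _ = p ^ 2 * NG A * n ^ p := by
        simp only [sum_const, card_univ, Fintype.card_prod, Fintype.card_fin, smul_eq_mul, NG]
        ring

end Vale.Agent.Lib.P037G
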