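import Mathlib
import Vale.Agent.Lib.P037G.Defs

/-!
# The corner pattern: averaging of the potential `PhiP` over random row samples

For a sample `σ : Fin p → Fin n` of rows, `PhiP A (image σ)` counts triples `(c, u, v)` with
`u ≤ v` both containing column `c` and no sampled row containing `c` in `[u, v)`. Summing over
all samples gives at most `2 n^3 n^p / (p + 1)`.
-/

namespace Vale.Agent.Lib.P037G

open Finset Vale.Agent.Lib.P037B
open Classical

variable {n : ℕ}

theorem pow_succ_step (m p : ℕ) : m ^ (p + 1) + (p + 1) * m ^ p ≤ (m + 1) ^ (p + 1) := by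
  induction p with
  | zero => simp
  | succ p ih =>
    have h1 : (m + 1) * (m ^ (p + 1) + (p + 1) * m ^ p)
        = m ^ (p + 1 + 1) + (p + 1 + 1) * m ^ (p + 1) + (p + 1) * m ^ p := by ring
    have h2 : (m + 1) * (m ^ (p + 1) + (p + 1) * m ^ p) ≤ (m + 1) * (m + 1) ^ (p + 1) :=
      Nat.mul_le_mul_left _ ih
    have h3 : (m + 1) * (m + 1) ^ (p + 1) = (m + 1) ^ (p + 1 + 1) := by ring
    omega

theorem sum_pow_le (m p : ℕ) : (p + 1) * ∑ j ∈ range m, j ^ p ≤ m ^ (p + 1) := by
  induction m with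
  | zero => simp
  | succ m ih =>
    rw [Finset.sum_range_succ, Nat.mul_add]
    have := pow_succ_step m p
    omega

theorem sum_succ_pow_le (m p : ℕ) (hp : p + 1 ≤ m) :
    (p + 1) * ∑ k ∈ range m, (m - k) ^ p ≤ 2 * m ^ (p + 1) := by
  have h1 : ∑ k ∈ range m, (m - k) ^ p = ∑ j ∈ range m, (j + 1) ^ p := by
    rw [← Finset.sum_range_reflect (fun j => (j + 1) ^ p) m]
    apply Finset.sum_congr rfl
    intro k hk
    have : k < m := Finset.mem_range.mp hk
    congr 1
    omega
  have h2 : ∑ j ∈ range m, (j + 1) ^ p ≤ ∑ j ∈ range m, j ^ p + m ^ p := by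
    have := Finset.sum_range_succ' (fun j => j ^ p) m
    have h3 := Finset.sum_range_succ (fun j => j ^ p) m
    have h0 : 0 ≤ (0 : ℕ) ^ p := Nat.zero_le _
    omega
  have h4 := sum_pow_le m p
  have h5 : (p + 1) * m ^ p ≤ m * m ^ p := Nat.mul_le_mul_right _ hp
  have h6 : m * m ^ p = m ^ (p + 1) := by ring
  calc (p + 1) * ∑ k ∈ range m, (m - k) ^ p
      ≤ (p + 1) * (∑ j ∈ range m, j ^ p + m ^ p) := by
        rw [h1]; exact Nat.mul_le_mul_left _ h2
    _ = (p + 1) * ∑ j ∈ range m, j ^ p + (p + 1) * m ^ p := by ring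
    _ ≤ 2 * m ^ (p + 1) := by omega

/-- The rows containing column `c` in the half-open interval `[u, v)`. -/
noncomputable def TT (A : Fin n → Fin n → Bool) (c u v : Fin n) : Finset (Fin n) :=
  univ.filter (fun ρ => A ρ c = true ∧ u ≤ ρ ∧ ρ < v)

theorem card_avoid (T : Finset (Fin n)) (p : ℕ) :
    (univ.filter (fun σ : Fin p → Fin n => ∀ i, σ i ∉ T)).card = (n - T.card) ^ p := by
  have h : (univ.filter (fun σ : Fin p → Fin n => ∀ i, σ i ∉ T))
      = Fintype.piFinset (fun _ : Fin p => Tᶜ) := by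
    ext σ
    simp [Fintype.mem_piFinset]
  rw [h, Fintype.card_piFinset]
  simp [Finset.card_compl]

theorem TT_card_lt (A : Fin n → Fin n → Bool) (c u v : Fin n) : (TT A c u v).card < n := by
  have h : TT A c u v ⊆ univ.erase v := by
    intro ρ hρ
    simp only [TT, mem_filter, mem_univ, true_and] at hρ
    simp only [mem_erase, mem_univ, and_true]
    exact ne_of_lt hρ.2.2
  have h2 := Finset.card_le_card h
  rw [Finset.card_erase_of_mem (mem_univ v)] at h2
  simp only [Finset.card_univ, Fintype.card_fin] at h2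
  have : 0 < n := Fin.pos v
  omega

theorem TT_card_lt_of_lt (A : Fin n → Fin n → Bool) (c u v v' : Fin n) (huv : u ≤ v)
    (hv : A v c = true) (hvv : v < v') : (TT A c u v).card < (TT A c u v').card := by
  apply Finset.card_lt_card
  rw [Finset.ssubset_iff_of_subset]
  · refine ⟨v, ?_, ?_⟩
    · simp only [TT, mem_filter, mem_univ, true_and]
      exact ⟨hv, huv, hvv⟩
    · simp only [TT, mem_filter, mem_univ, true_and]
      intro h
      exact lt_irrefl _ h.2.2
  · intro ρ hρ
    simp only [TT, mem_filter, mem_univ, true_and] at hρ ⊢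
    exact ⟨hρ.1, hρ.2.1, lt_trans hρ.2.2 hvv⟩

/-- For a fixed column `c` and row `u`: the sum over `v`. -/
theorem inner_sum_le (A : Fin n → Fin n → Bool) (c u : Fin n) (p : ℕ) :
    ∑ v ∈ univ.filter (fun v : Fin n => A v c = true ∧ u ≤ v), (n - (TT A c u v).card) ^ p
      ≤ ∑ k ∈ range n, (n - k) ^ p := by
  have hinj : ∀ v ∈ univ.filter (fun v : Fin n => A v c = true ∧ u ≤ v),
      ∀ v' ∈ univ.filter (fun v : Fin n => A v c = true ∧ u ≤ v),
      (TT A c u v).card = (TT A c u v').card → v = v' := by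
    intro v hv v' hv' h
    simp only [mem_filter, mem_univ, true_and] at hv hv'
    rcases lt_trichotomy v v' with h1 | h1 | h1
    · have := TT_card_lt_of_lt A c u v v' hv.2 hv.1 h1
      omega
    · exact h1
    · have := TT_card_lt_of_lt A c u v' v hv'.2 hv'.1 h1
      omega
  rw [← Finset.sum_image (f := fun k => (n - k) ^ p) (g := fun v => (TT A c u v).card) hinj]
  apply Finset.sum_le_sum_of_subset
  intro k hk
  simp only [mem_image] at hk
  obtain ⟨v, -, rfl⟩ := hk
  exact Finset.mem_range.mpr (TT_card_lt A c u v)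

theorem sum_PhiC (A : Fin n → Fin n → Bool) (c : Fin n) (p : ℕ) :
    ∑ σ : Fin p → Fin n, PhiC A (univ.image σ) c
      = ∑ q : Fin n × Fin n, if (A q.1 c = true ∧ A q.2 c = true ∧ q.1 ≤ q.2)
          then (n - (TT A c q.1 q.2).card) ^ p else 0 := by
  unfold PhiC
  simp_rw [Finset.card_filter]
  rw [Finset.sum_comm]
  apply Finset.sum_congr rfl
  intro q _
  by_cases h : A q.1 c = true ∧ A q.2 c = true ∧ q.1 ≤ q.2
  · rw [if_pos h, ← card_avoid (TT A c q.1 q.2) p, Finset.card_filter]
    apply Finset.sum_congr rfl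
    intro σ _
    apply if_congr _ rfl rfl
    constructor
    · intro h' i hi
      simp only [TT, mem_filter, mem_univ, true_and] at hi
      exact h'.2.2.2 (σ i) (Finset.mem_image_of_mem σ (mem_univ i)) hi.1 ⟨hi.2.1, hi.2.2⟩
    · intro h'
      refine ⟨h.1, h.2.1, h.2.2, ?_⟩
      intro ρ hρ hA hb
      obtain ⟨i, -, rfl⟩ := Finset.mem_image.mp hρ
      apply h' i
      simp only [TT, mem_filter, mem_univ, true_and]
      exact ⟨hA, hb.1, hb.2⟩
  · rw [if_neg h]
    apply Finset.sum_eq_zero
    intro σ _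
    rw [if_neg]
    intro h'
    exact h ⟨h'.1, h'.2.1, h'.2.2.1⟩

/-- Averaging of `PhiP` over all samples `σ` of `p` rows. -/
theorem avg_Phi (A : Fin n → Fin n → Bool) (p : ℕ) (hp : p + 1 ≤ n) :
    (p + 1) * ∑ σ : Fin p → Fin n, PhiP A (univ.image σ) ≤ 2 * n ^ 3 * n ^ p := by
  have key : ∀ c : Fin n,
      (p + 1) * ∑ σ : Fin p → Fin n, PhiC A (univ.image σ) c ≤ n * (2 * n ^ (p + 1)) := by
    intro c
    rw [sum_PhiC, Fintype.sum_prod_type, Finset.mul_sum]
    have hu : ∀ u : Fin n,
        (p + 1) * ∑ v : Fin n, (if (A u c = true ∧ A v c = true ∧ u ≤ v)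
          then (n - (TT A c u v).card) ^ p else 0) ≤ 2 * n ^ (p + 1) := by
      intro u
      by_cases hu : A u c = true
      · have h1 : ∑ v : Fin n, (if (A u c = true ∧ A v c = true ∧ u ≤ v)
            then (n - (TT A c u v).card) ^ p else 0)
            = ∑ v ∈ univ.filter (fun v : Fin n => A v c = true ∧ u ≤ v),
                (n - (TT A c u v).card) ^ p := by
          rw [Finset.sum_filter]
          apply Finset.sum_congr rfl
          intro v _
          apply if_congr _ rfl rfl
          constructor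
          · intro h; exact ⟨h.2.1, h.2.2⟩
          · intro h; exact ⟨hu, h.1, h.2⟩
        rw [h1]
        exact le_trans (Nat.mul_le_mul_left _ (inner_sum_le A c u p)) (sum_succ_pow_le n p hp)
      · have h1 : ∑ v : Fin n, (if (A u c = true ∧ A v c = true ∧ u ≤ v)
            then (n - (TT A c u v).card) ^ p else 0) = 0 :=
          Finset.sum_eq_zero (fun v _ => if_neg (fun h => hu h.1))
        rw [h1]
        simp
    calc ∑ u : Fin n, (p + 1) * ∑ v : Fin n, (if (A u c = true ∧ A v c = true ∧ u ≤ v)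
          then (n - (TT A c u v).card) ^ p else 0)
        ≤ ∑ _u : Fin n, 2 * n ^ (p + 1) := Finset.sum_le_sum (fun u _ => hu u)
      _ = n * (2 * n ^ (p + 1)) := by simp
  unfold PhiP
  rw [Finset.sum_comm, Finset.mul_sum]
  calc ∑ c : Fin n, (p + 1) * ∑ σ : Fin p → Fin n, PhiC A (univ.image σ) c
      ≤ ∑ _c : Fin n, n * (2 * n ^ (p + 1)) := Finset.sum_le_sum (fun c _ => key c)
    _ = 2 * n ^ 3 * n ^ p := by
        simp only [Finset.sum_const, Finset.card_univ, Fintype.card_fin, smul_eq_mul]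
        ring

end Vale.Agent.Lib.P037G
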