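import Mathlib
import Vale.Agent.Lib.P037G.Defs

/-!
# The corner pattern: choosing a good sample of rows

A three-set Markov argument: if the three counting functions `XP`, `WP`, `PhiP` are small on
average over all `p`-tuples of rows, then some `p`-tuple is good for all three at once.
-/

namespace Vale.Agent.Lib.P037G

open Finset Vale.Agent.Lib.P037B
open Classical

variable {n : ℕ}

/-- Markov's inequality in counting form: if the sum of `f` over a type with `M > 0` elements
is at most `K * M`, then fewer than a quarter of the elements have `f > 4 * K`. -/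
theorem markov_quarter {ι : Type*} [Fintype ι] (f : ι → ℕ) (K M : ℕ)
    (_hM : Fintype.card ι = M) (hpos : 0 < M) (h : ∑ σ, f σ ≤ K * M) :
    4 * (univ.filter (fun σ => 4 * K < f σ)).card < M := by
  set S := univ.filter (fun σ => 4 * K < f σ) with hS
  have h1 : S.card * (4 * K + 1) ≤ ∑ σ ∈ S, f σ := by
    rw [← smul_eq_mul, ← sum_const]
    apply sum_le_sum
    intro σ hσ
    have := (mem_filter.1 hσ).2
    omega
  have h2 : ∑ σ ∈ S, f σ ≤ ∑ σ, f σ :=
    sum_le_sum_of_subset (subset_univ S)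
  have h3 : S.card * (4 * K + 1) ≤ K * M := h1.trans (h2.trans h)
  by_contra hcon
  have hcon' : M ≤ 4 * S.card := Nat.le_of_not_lt hcon
  have h4 : M * (4 * K + 1) ≤ 4 * S.card * (4 * K + 1) := Nat.mul_le_mul_right _ hcon'
  have h5 : 4 * S.card * (4 * K + 1) ≤ 4 * (K * M) := by
    calc 4 * S.card * (4 * K + 1) = 4 * (S.card * (4 * K + 1)) := by ring
      _ ≤ 4 * (K * M) := Nat.mul_le_mul_left _ h3
  have h6 : M * (4 * K + 1) = 4 * (K * M) + M := by ring
  omega

/-- Three-set Markov: from the three averaging bounds (in the form of `avg_X`, `avg_W`,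
`avg_Phi`) one gets a `p`-tuple of rows that is good for `XP`, `WP` and `PhiP` at once. -/
theorem exists_sample_of_avg (A : Fin n → Fin n → Bool) (p : ℕ) (hp : p + 1 ≤ n)
    (hX : (∑ σ : Fin p → Fin n, XP A (univ.image σ)) * n ≤ 2 * p * NG A * n ^ p)
    (hW : (∑ σ : Fin p → Fin n, WP A (univ.image σ)) * n ^ 2 ≤ p ^ 2 * NG A * n ^ p)
    (hPhi : (p + 1) * ∑ σ : Fin p → Fin n, PhiP A (univ.image σ) ≤ 2 * n ^ 3 * n ^ p) :
    ∃ σ : Fin p → Fin n, XP A (univ.image σ) * n ≤ 8 * p * NG A ∧
      WP A (univ.image σ) * n ^ 2 ≤ 4 * p ^ 2 * NG A ∧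
      (p + 1) * PhiP A (univ.image σ) ≤ 8 * n ^ 3 := by
  have hn : 0 < n := by omega
  have hM : Fintype.card (Fin p → Fin n) = n ^ p := by
    simp
  have hpos : 0 < n ^ p := pow_pos hn p
  have m1 := markov_quarter (fun σ : Fin p → Fin n => XP A (univ.image σ) * n) (2 * p * NG A)
    (n ^ p) hM hpos (by rw [← sum_mul]; exact hX)
  have m2 := markov_quarter (fun σ : Fin p → Fin n => WP A (univ.image σ) * n ^ 2)
    (p ^ 2 * NG A) (n ^ p) hM hpos (by rw [← sum_mul]; exact hW)
  have m3 := markov_quarter (fun σ : Fin p → Fin n => (p + 1) * PhiP A (univ.image σ))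
    (2 * n ^ 3) (n ^ p) hM hpos (by rw [← mul_sum]; exact hPhi)
  set S1 := univ.filter (fun σ : Fin p → Fin n => 4 * (2 * p * NG A) < XP A (univ.image σ) * n)
  set S2 := univ.filter
    (fun σ : Fin p → Fin n => 4 * (p ^ 2 * NG A) < WP A (univ.image σ) * n ^ 2)
  set S3 := univ.filter
    (fun σ : Fin p → Fin n => 4 * (2 * n ^ 3) < (p + 1) * PhiP A (univ.image σ))
  have hcard : (S1 ∪ S2 ∪ S3).card < (univ : Finset (Fin p → Fin n)).card := by
    have h1 : (S1 ∪ S2 ∪ S3).card ≤ S1.card + S2.card + S3.card :=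
      (card_union_le _ _).trans (Nat.add_le_add_right (card_union_le _ _) _)
    rw [card_univ, hM]
    omega
  obtain ⟨σ, -, hσ⟩ := exists_mem_notMem_of_card_lt_card hcard
  refine ⟨σ, ?_, ?_, ?_⟩
  · by_contra hc
    apply hσ
    apply mem_union_left
    apply mem_union_left
    rw [mem_filter]
    have e : 4 * (2 * p * NG A) = 8 * p * NG A := by ring
    exact ⟨mem_univ _, by rw [e]; exact Nat.lt_of_not_le hc⟩
  · by_contra hc
    apply hσ
    apply mem_union_left
    apply mem_union_right
    rw [mem_filter]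
    have e : 4 * (p ^ 2 * NG A) = 4 * p ^ 2 * NG A := by ring
    exact ⟨mem_univ _, by rw [e]; exact Nat.lt_of_not_le hc⟩
  · by_contra hc
    apply hσ
    apply mem_union_right
    rw [mem_filter]
    have e : 4 * (2 * n ^ 3) = 8 * n ^ 3 := by ring
    exact ⟨mem_univ _, by rw [e]; exact Nat.lt_of_not_le hc⟩

end Vale.Agent.Lib.P037G
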