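import Mathlib
import Vale.Agent.Lib.P037G.Defs
import Vale.Agent.Lib.P037G.Avg
import Vale.Agent.Lib.P037G.AvgPhi
import Vale.Agent.Lib.P037G.Sample

/-!
# The corner pattern: existence of a good sample of rows
-/

namespace Vale.Agent.Lib.P037G

open Finset Vale.Agent.Lib.P037B
open Classical

variable {n : ℕ}

theorem exists_sample (A : Fin n → Fin n → Bool) (p : ℕ) (hp : p + 1 ≤ n) :
    ∃ σ : Fin p → Fin n, XP A (univ.image σ) * n ≤ 8 * p * NG A ∧
      WP A (univ.image σ) * n ^ 2 ≤ 4 * p ^ 2 * NG A ∧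
      (p + 1) * PhiP A (univ.image σ) ≤ 8 * n ^ 3 :=
  exists_sample_of_avg A p hp (avg_X A p) (avg_W A p) (avg_Phi A p hp)

end Vale.Agent.Lib.P037G
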