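import Mathlib
import Vale.Agent.Lib.P037G.Defs
import Vale.Agent.Lib.P037G.Clean
import Vale.Agent.Lib.P037G.ExistsSample
import Vale.Agent.Lib.P037G.Bridge
import Vale.Agent.Lib.P037G.Comb

/-!
# The corner pattern `[[0,1],[1,1]]`: assembly of the removal bound

From the sampling lemma, the cleaning lemma and the main combinatorial lemma we derive
`N ≥ ε ^ 18 * n ^ 4 / (676 * 29 ^ 16)` for matrices that are `ε`-far from corner-free.
-/

namespace Vale.Agent.Lib.P037G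

open Finset Vale.Agent.Lib.P037B
open Classical

variable {n : ℕ}

/-- Step 1 of the real-number core: the inner square root. -/
theorem arith_T (n Φ q T : ℝ) (hn : 0 < n) (hq : 0 ≤ q) (hT : 0 ≤ T)
    (h3 : q ^ 4 * Φ ≤ 8 * n ^ 3) (h5 : T ^ 2 ≤ 2 * n * Φ) : q ^ 2 * T ≤ 4 * n ^ 2 := by
  have hsq : (q ^ 2 * T) ^ 2 ≤ (4 * n ^ 2) ^ 2 := by
    calc (q ^ 2 * T) ^ 2 = q ^ 4 * T ^ 2 := by ring
      _ ≤ q ^ 4 * (2 * n * Φ) := mul_le_mul_of_nonneg_left h5 (by positivity)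
      _ = 2 * n * (q ^ 4 * Φ) := by ring
      _ ≤ 2 * n * (8 * n ^ 3) := mul_le_mul_of_nonneg_left h3 (by positivity)
      _ = (4 * n ^ 2) ^ 2 := by ring
  exact (pow_le_pow_iff_left₀ (by positivity) (by positivity) (by norm_num)).mp hsq

/-- Step 2 of the real-number core: the outer square root. -/
theorem arith_S (n N X p q T S : ℝ) (hn : 0 < n) (hq : 0 ≤ q)
    (h1 : X * n ≤ 8 * p * N) (hT2 : q ^ 2 * T ≤ 4 * n ^ 2)
    (h6 : S ^ 2 ≤ n * (2 * X + 3 * n * T)) :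
    (q * S) ^ 2 ≤ 16 * q ^ 2 * p * N + 12 * n ^ 4 := by
  calc (q * S) ^ 2 = q ^ 2 * S ^ 2 := by ring
    _ ≤ q ^ 2 * (n * (2 * X + 3 * n * T)) := mul_le_mul_of_nonneg_left h6 (by positivity)
    _ = 2 * q ^ 2 * (X * n) + 3 * n ^ 2 * (q ^ 2 * T) := by ring
    _ ≤ 2 * q ^ 2 * (8 * p * N) + 3 * n ^ 2 * (4 * n ^ 2) :=
        add_le_add (mul_le_mul_of_nonneg_left h1 (by positivity))
          (mul_le_mul_of_nonneg_left hT2 (by positivity))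
    _ = 16 * q ^ 2 * p * N + 12 * n ^ 4 := by ring

/-- Step 3 of the real-number core: the deleted columns. -/
theorem arith_z (n N W z p : ℝ) (hn : 0 < n) (hp : 0 ≤ p)
    (h2 : W * n ^ 2 ≤ 4 * p ^ 2 * N) (h4 : z ^ 2 ≤ 5 * p ^ 2 * W) :
    (z * n) ^ 2 ≤ 20 * p ^ 4 * N := by
  calc (z * n) ^ 2 = z ^ 2 * n ^ 2 := by ring
    _ ≤ 5 * p ^ 2 * W * n ^ 2 := mul_le_mul_of_nonneg_right h4 (by positivity)
    _ = 5 * p ^ 2 * (W * n ^ 2) := by ring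
    _ ≤ 5 * p ^ 2 * (4 * p ^ 2 * N) := mul_le_mul_of_nonneg_left h2 (by positivity)
    _ = 20 * p ^ 4 * N := by ring

/-- Size facts: `q ≥ 28` and `q ^ 2 ≤ p` when `p + 1 = q ^ 4`. -/
theorem arith_pq (ε p q : ℝ) (hε1 : ε ≤ 1) (hq : 0 ≤ q) (hq28 : 28 ≤ q * ε)
    (hpq : p + 1 = q ^ 4) : q ^ 2 ≤ p ∧ 1 ≤ p := by
  have hq28' : 28 ≤ q := by
    have : q * ε ≤ q * 1 := mul_le_mul_of_nonneg_left hε1 hq
    linarith
  have hqsq : 784 ≤ q ^ 2 := by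
    have : (28 : ℝ) * 28 ≤ q * q := mul_le_mul hq28' hq28' (by norm_num) hq
    have e : q ^ 2 = q * q := by ring
    rw [e]
    linarith
  have hpq2 : q ^ 2 ≤ p := by
    have e : q ^ 4 = q ^ 2 * q ^ 2 := by ring
    have : (784 : ℝ) * q ^ 2 ≤ q ^ 2 * q ^ 2 := mul_le_mul_of_nonneg_right hqsq (by positivity)
    linarith
  exact ⟨hpq2, by linarith⟩

/-- Step 4 of the real-number core: the contradiction. -/
theorem arith_main (ε n N z p q S : ℝ)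
    (hε : 0 < ε) (hε1 : ε ≤ 1) (hn : 0 < n) (hN : 0 ≤ N)
    (hz : 0 ≤ z) (hp : 0 ≤ p) (hq : 0 ≤ q) (hS : 0 ≤ S)
    (hq28 : 28 ≤ q * ε) (hpq2 : q ^ 2 ≤ p) (hp1 : 1 ≤ p) (hn8 : 8 ≤ n * ε)
    (hS2 : (q * S) ^ 2 ≤ 16 * q ^ 2 * p * N + 12 * n ^ 4)
    (hz2 : (z * n) ^ 2 ≤ 20 * p ^ 4 * N)
    (h7 : ε * n ^ 2 ≤ z * n + 2 * n + 2 * S) :
    ε ^ 2 * n ^ 4 ≤ 676 * p ^ 4 * N := by
  have hεn : 0 < ε * n ^ 2 := by positivity
  have hε2 : ε ^ 2 ≤ 1 := pow_le_one₀ hε.le hε1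
  by_contra hcon
  have hlt : 676 * p ^ 4 * N < ε ^ 2 * n ^ 4 := not_le.mp hcon
  have hza : z * n < 0.18 * (ε * n ^ 2) := by
    have hsq : (z * n) ^ 2 < (0.18 * (ε * n ^ 2)) ^ 2 := by
      have e : (0.18 * (ε * n ^ 2)) ^ 2 = 0.0324 * (ε ^ 2 * n ^ 4) := by ring
      rw [e]
      have hpos : 0 < ε ^ 2 * n ^ 4 := by positivity
      linarith
    exact (pow_lt_pow_iff_left₀ (by positivity) (by positivity) (by norm_num)).mp hsq
  have hqp : q ^ 2 * p * N ≤ p ^ 4 * N := by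
    have h12 : q ^ 2 * p ≤ p ^ 4 := by
      have ha : q ^ 2 * p ≤ p * p := mul_le_mul_of_nonneg_right hpq2 hp
      have hpp : 1 ≤ p * p := by
        have : (1 : ℝ) * 1 ≤ p * p := mul_le_mul hp1 hp1 (by norm_num) hp
        linarith
      have hb : p * p ≤ p ^ 4 := by
        have e : p ^ 4 = (p * p) * (p * p) := by ring
        rw [e]
        have : (p * p) * 1 ≤ (p * p) * (p * p) := mul_le_mul_of_nonneg_left hpp (by positivity)
        linarith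
      linarith
    exact mul_le_mul_of_nonneg_right h12 hN
  have hSa : q * S < 3.5 * n ^ 2 := by
    have hsq : (q * S) ^ 2 < (3.5 * n ^ 2) ^ 2 := by
      have e : (3.5 * n ^ 2) ^ 2 = 12.25 * n ^ 4 := by ring
      rw [e]
      have hpos : 0 < n ^ 4 := by positivity
      have e2 : 16 * q ^ 2 * p * N = 16 * (q ^ 2 * p * N) := by ring
      have hle : ε ^ 2 * n ^ 4 ≤ 1 * n ^ 4 := mul_le_mul_of_nonneg_right hε2 hpos.le
      linarith
    exact (pow_lt_pow_iff_left₀ (by positivity) (by positivity) (by norm_num)).mp hsq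
  have hSb : 28 * S ≤ ε * (q * S) := by
    have : 28 * S ≤ (q * ε) * S := mul_le_mul_of_nonneg_right hq28 hS
    have e : ε * (q * S) = (q * ε) * S := by ring
    linarith
  have hSc : ε * (q * S) < ε * (3.5 * n ^ 2) := mul_lt_mul_of_pos_left hSa hε
  have hnb : 8 * n ≤ ε * n ^ 2 := by
    have : 8 * n ≤ (n * ε) * n := mul_le_mul_of_nonneg_right hn8 hn.le
    have e : ε * n ^ 2 = (n * ε) * n := by ring
    linarith
  linarith

/-- Step 5 of the real-number core: from `p` to `ε`. -/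
theorem arith_final (ε n N p q : ℝ) (hε : 0 < ε) (hN : 0 ≤ N) (hp : 0 ≤ p) (hq : 0 ≤ q)
    (hq29 : q * ε ≤ 29) (hpq : p + 1 = q ^ 4)
    (hmain : ε ^ 2 * n ^ 4 ≤ 676 * p ^ 4 * N) :
    ε ^ 18 * n ^ 4 ≤ 676 * 29 ^ 16 * N := by
  have hp4 : p ^ 4 * ε ^ 16 ≤ 29 ^ 16 := by
    have hpq' : p ≤ q ^ 4 := by linarith
    calc p ^ 4 * ε ^ 16 ≤ (q ^ 4) ^ 4 * ε ^ 16 :=
          mul_le_mul_of_nonneg_right (pow_le_pow_left₀ hp hpq' 4) (by positivity)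
      _ = (q * ε) ^ 16 := by ring
      _ ≤ 29 ^ 16 := pow_le_pow_left₀ (by positivity) hq29 16
  calc ε ^ 18 * n ^ 4 = ε ^ 16 * (ε ^ 2 * n ^ 4) := by ring
    _ ≤ ε ^ 16 * (676 * p ^ 4 * N) := mul_le_mul_of_nonneg_left hmain (by positivity)
    _ = 676 * (p ^ 4 * ε ^ 16) * N := by ring
    _ ≤ 676 * 29 ^ 16 * N := by
        apply mul_le_mul_of_nonneg_right _ hN
        linarith

/-- The real-number core of the assembly. -/
theorem corner_arith (ε n N X W Φ z p q T S : ℝ)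
    (hε : 0 < ε) (hε1 : ε ≤ 1) (hn : 0 < n) (hN : 0 ≤ N)
    (hz : 0 ≤ z) (hp : 0 ≤ p) (hq : 0 ≤ q) (hT : 0 ≤ T) (hS : 0 ≤ S)
    (hq28 : 28 ≤ q * ε) (hq29 : q * ε ≤ 29) (hpq : p + 1 = q ^ 4) (hn8 : 8 ≤ n * ε)
    (h1 : X * n ≤ 8 * p * N) (h2 : W * n ^ 2 ≤ 4 * p ^ 2 * N) (h3 : q ^ 4 * Φ ≤ 8 * n ^ 3)
    (h4 : z ^ 2 ≤ 5 * p ^ 2 * W) (h5 : T ^ 2 ≤ 2 * n * Φ)
    (h6 : S ^ 2 ≤ n * (2 * X + 3 * n * T))
    (h7 : ε * n ^ 2 ≤ z * n + 2 * n + 2 * S) :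
    ε ^ 18 * n ^ 4 ≤ 676 * 29 ^ 16 * N := by
  have hT2 := arith_T n Φ q T hn hq hT h3 h5
  have hS2 := arith_S n N X p q T S hn hq h1 hT2 h6
  have hz2 := arith_z n N W z p hn hp h2 h4
  obtain ⟨hpq2, hp1⟩ := arith_pq ε p q hε1 hq hq28 hpq
  have hmain := arith_main ε n N z p q S hε hε1 hn hN hz hp hq hS hq28 hpq2 hp1 hn8 hS2 hz2 h7
  exact arith_final ε n N p q hε hN hp hq hq29 hpq hmain

theorem entryDiff_triangle (A B C : Fin n → Fin n → Bool) :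
    entryDiff A C ≤ entryDiff A B + entryDiff B C := by
  unfold entryDiff
  refine le_trans (card_le_card ?_) (card_union_le _ _)
  intro x hx
  simp only [mem_filter, mem_univ, true_and, mem_union] at hx ⊢
  by_contra h
  rw [not_or, not_not, not_not] at h
  exact hx (h.1.trans h.2)

theorem entryDiff_self (A : Fin n → Fin n → Bool) : entryDiff A A = 0 := by
  unfold entryDiff
  rw [card_eq_zero, filter_eq_empty_iff]
  intro x _ h
  exact h rfl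

/-- A matrix that is `ε`-far from corner-free has at least one copy (when `n > 0`). -/
theorem one_le_NG (A : Fin n → Fin n → Bool) (ε : ℝ) (hε : 0 < ε) (hn : 0 < n)
    (hfar : ∀ B : Fin n → Fin n → Bool, GFree B → ε * (n : ℝ) ^ 2 ≤ (entryDiff A B : ℝ)) :
    1 ≤ NG A := by
  by_contra hN
  have hN0 : NG A = 0 := by omega
  have hfreeA : GFree A := by
    intro r1 r2 a b hc
    have hmem : (r1, r2, a, b) ∈ copySet A := by
      unfold copySet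
      rw [mem_filter]
      exact ⟨mem_univ _, hc⟩
    unfold NG at hN0
    rw [card_eq_zero] at hN0
    rw [hN0] at hmem
    exact absurd hmem (notMem_empty _)
  have h := hfar A hfreeA
  rw [entryDiff_self] at h
  have hnr : (0 : ℝ) < n := by exact_mod_cast hn
  have hpos : 0 < ε * (n : ℝ) ^ 2 := by positivity
  have h0 : ((0 : ℕ) : ℝ) = 0 := Nat.cast_zero
  linarith

/-- The removal bound for the corner pattern, before normalisation. -/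
theorem corner_key (n : ℕ) (A : Fin n → Fin n → Bool) (ε : ℝ) (hε : 0 < ε) (hε1 : ε ≤ 1)
    (hfar : ∀ B : Fin n → Fin n → Bool, GFree B → ε * (n : ℝ) ^ 2 ≤ (entryDiff A B : ℝ)) :
    ε ^ 18 * (n : ℝ) ^ 4 ≤ 676 * 29 ^ 16 * (NG A : ℝ) := by
  rcases Nat.eq_zero_or_pos n with hn0 | hnpos
  · subst hn0
    have h0 : ((0 : ℕ) : ℝ) = 0 := Nat.cast_zero
    rw [h0]
    have hNN : (0 : ℝ) ≤ (NG A : ℝ) := Nat.cast_nonneg _
    have : ε ^ 18 * (0 : ℝ) ^ 4 = 0 := by ring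
    rw [this]
    positivity
  have hN1 : 1 ≤ NG A := one_le_NG A ε hε hnpos hfar
  have hN1r : (1 : ℝ) ≤ (NG A : ℝ) := by exact_mod_cast hN1
  have hnr : (0 : ℝ) < n := by exact_mod_cast hnpos
  obtain ⟨q, hqdef⟩ : ∃ q : ℕ, q = ⌈28 / ε⌉₊ := ⟨_, rfl⟩
  have hq28 : 28 ≤ (q : ℝ) * ε := by
    have h := Nat.le_ceil (28 / ε)
    rw [← hqdef] at h
    rw [div_le_iff₀ hε] at h
    exact h
  have hq29 : (q : ℝ) * ε ≤ 29 := by
    have h := Nat.ceil_lt_add_one (show (0 : ℝ) ≤ 28 / ε by positivity)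
    rw [← hqdef] at h
    have h2 : (q : ℝ) * ε < (28 / ε + 1) * ε := mul_lt_mul_of_pos_right h hε
    have h3 : (28 / ε + 1) * ε = 28 + ε := by
      field_simp
    linarith
  have hqr : (0 : ℝ) ≤ (q : ℝ) := Nat.cast_nonneg _
  by_cases hsmall : n < q ^ 4
  · have hnq : (n : ℝ) ≤ (q : ℝ) ^ 4 := by exact_mod_cast hsmall.le
    have h1 : ε ^ 4 * (n : ℝ) ≤ 29 ^ 4 := by
      calc ε ^ 4 * (n : ℝ) ≤ ε ^ 4 * (q : ℝ) ^ 4 := mul_le_mul_of_nonneg_left hnq (by positivity)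
        _ = ((q : ℝ) * ε) ^ 4 := by ring
        _ ≤ 29 ^ 4 := pow_le_pow_left₀ (by positivity) hq29 4
    have h2 : (ε ^ 4 * (n : ℝ)) ^ 4 ≤ (29 ^ 4) ^ 4 := pow_le_pow_left₀ (by positivity) h1 4
    have hε2 : ε ^ 2 ≤ 1 := pow_le_one₀ hε.le hε1
    calc ε ^ 18 * (n : ℝ) ^ 4 = ε ^ 2 * (ε ^ 4 * (n : ℝ)) ^ 4 := by ring
      _ ≤ 1 * (29 ^ 4) ^ 4 := mul_le_mul hε2 h2 (by positivity) (by norm_num)
      _ ≤ 676 * 29 ^ 16 * (NG A : ℝ) := by
          norm_num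
          linarith
  by_cases hn8 : (n : ℝ) * ε < 8
  · have h2 : ((n : ℝ) * ε) ^ 4 ≤ 8 ^ 4 := pow_le_pow_left₀ (by positivity) hn8.le 4
    have hε14 : ε ^ 14 ≤ 1 := pow_le_one₀ hε.le hε1
    calc ε ^ 18 * (n : ℝ) ^ 4 = ε ^ 14 * ((n : ℝ) * ε) ^ 4 := by ring
      _ ≤ 1 * 8 ^ 4 := mul_le_mul hε14 h2 (by positivity) (by norm_num)
      _ ≤ 676 * 29 ^ 16 * (NG A : ℝ) := by
          norm_num
          linarith
  -- the main case
  have hqn : q ^ 4 ≤ n := not_lt.mp hsmall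
  have hn8' : 8 ≤ (n : ℝ) * ε := not_lt.mp hn8
  have hq4pos : 0 < q ^ 4 := by
    have hq0 : 0 < q := by
      rcases Nat.eq_zero_or_pos q with h | h
      · rw [h] at hq28
        have h0 : ((0 : ℕ) : ℝ) = 0 := Nat.cast_zero
        rw [h0] at hq28
        linarith
      · exact h
    positivity
  obtain ⟨p, hp⟩ : ∃ p : ℕ, p + 1 = q ^ 4 := ⟨q ^ 4 - 1, by omega⟩
  obtain ⟨σ, hX, hW, hΦ⟩ := exists_sample A p (by omega)
  obtain ⟨P, hPdef⟩ : ∃ P : Finset (Fin n), P = univ.image σ := ⟨_, rfl⟩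
  rw [← hPdef] at hX hW hΦ
  have hPcard : P.card ≤ p := by
    rw [hPdef]
    calc (univ.image σ).card ≤ (univ : Finset (Fin p)).card := card_image_le
      _ = p := by simp
  obtain ⟨Z, hZ, hfree⟩ := cleaning A P
  obtain ⟨B, hB, hdist⟩ := main_comb hfree
  have hXle := XP_zeroCols_le A Z P
  have hΦle := PhiP_zeroCols_le A Z P
  have hdz := entryDiff_zeroCols_le A Z
  have htri := entryDiff_triangle A (zeroCols A Z) B
  have hfarB := hfar B hB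
  obtain ⟨T, hTdef⟩ : ∃ T : ℕ, T = Nat.sqrt (2 * n * PhiP (zeroCols A Z) P) := ⟨_, rfl⟩
  obtain ⟨S, hSdef⟩ : ∃ S : ℕ, S = Nat.sqrt (n * (2 * XP (zeroCols A Z) P + 3 * n * T)) :=
    ⟨_, rfl⟩
  rw [← hTdef, ← hSdef] at hdist
  have hT2 : T ^ 2 ≤ 2 * n * PhiP A P := by
    rw [hTdef]
    exact le_trans (Nat.sqrt_le' _) (Nat.mul_le_mul_left _ hΦle)
  have hS2 : S ^ 2 ≤ n * (2 * XP A P + 3 * n * T) := by
    rw [hSdef]
    exact le_trans (Nat.sqrt_le' _)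
      (Nat.mul_le_mul_left _ (Nat.add_le_add_right (Nat.mul_le_mul_left _ hXle) _))
  have hZ2 : Z.card ^ 2 ≤ 5 * p ^ 2 * WP A P :=
    le_trans hZ (Nat.mul_le_mul_right _ (Nat.mul_le_mul_left _ (Nat.pow_le_pow_left hPcard 2)))
  have hD : entryDiff A B ≤ Z.card * n + 2 * n + 2 * S := by omega
  rw [hp] at hΦ
  have hpr : (p : ℝ) + 1 = (q : ℝ) ^ 4 := by exact_mod_cast hp
  exact corner_arith ε n (NG A) (XP A P) (WP A P) (PhiP A P) Z.card p q T S hε hε1 hnr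
    (Nat.cast_nonneg _) (Nat.cast_nonneg _) (Nat.cast_nonneg _) hqr (Nat.cast_nonneg _)
    (Nat.cast_nonneg _) hq28 hq29 hpr hn8' (by exact_mod_cast hX) (by exact_mod_cast hW)
    (by exact_mod_cast hΦ)
    (by exact_mod_cast hZ2) (by exact_mod_cast hT2) (by exact_mod_cast hS2)
    (le_trans hfarB (by exact_mod_cast hD))

/-- The removal bound for the corner pattern `[[0,1],[1,1]]`. -/
theorem corner_removal (n : ℕ) (A : Fin n → Fin n → Bool) (ε : ℝ) (hε : 0 < ε) (hε1 : ε ≤ 1)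
    (hfar : ∀ B : Fin n → Fin n → Bool, GFree B → ε * (n : ℝ) ^ 2 ≤ (entryDiff A B : ℝ)) :
    (1 / (676 * 29 ^ 16 : ℝ)) * ε ^ 18 * (n : ℝ) ^ 4 ≤ (NG A : ℝ) := by
  have h := corner_key n A ε hε hε1 hfar
  have e : (1 / (676 * 29 ^ 16 : ℝ)) * ε ^ 18 * (n : ℝ) ^ 4
      = (ε ^ 18 * (n : ℝ) ^ 4) / (676 * 29 ^ 16) := by ring
  rw [e, div_le_iff₀ (by positivity)]
  linarith

end Vale.Agent.Lib.P037G
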