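import Mathlib
import Vale.Agent.Lib.P037B.Defs
import Vale.Agent.Lib.P037B.Blow

/-!
# The quadruple-form removal bound for a 2 x 2 pattern, and the three symmetries

`Base H₀ c₀ C₀` is the hypothesis of `Vale.Agent.Lib.P037B.blowup_removal` for the pattern `H₀`.
-/

namespace Vale.Agent.Lib.P037G

open Finset Vale.Agent.Lib.P037B

/-- The quadruple-form removal bound for the 2 x 2 pattern `H₀`, with constant `c₀` and
exponent `C₀`. -/
def Base (H₀ : Fin 2 → Fin 2 → Bool) (c₀ : ℝ) (C₀ : ℕ) : Prop :=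
  ∀ (n : ℕ) (A : Fin n → Fin n → Bool) (ε : ℝ), 0 < ε → ε ≤ 1 →
    (∀ B : Fin n → Fin n → Bool, (∀ r1 r2 c1 c2, ¬ Quad H₀ B r1 r2 c1 c2) →
      ε * (n : ℝ) ^ 2 ≤ (entryDiff A B : ℝ)) →
    c₀ * ε ^ C₀ * (n : ℝ) ^ 4 ≤ (qcount H₀ A : ℝ)

/-- Reverse the row order (of a host matrix or of a pattern). -/
def flipRows {m : ℕ} (A : Fin m → Fin m → Bool) : Fin m → Fin m → Bool :=
  fun r c => A (Fin.rev r) c

/-- Reverse the column order (of a host matrix or of a pattern). -/
def flipCols {m : ℕ} (A : Fin m → Fin m → Bool) : Fin m → Fin m → Bool :=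
  fun r c => A r (Fin.rev c)

/-- Exchange zeros and ones (of a host matrix or of a pattern). -/
def negate {m : ℕ} (A : Fin m → Fin m → Bool) : Fin m → Fin m → Bool :=
  fun r c => !(A r c)

end Vale.Agent.Lib.P037G
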