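import Mathlib
import Vale.Agent.Lib.P037B.Defs
import Vale.Agent.Lib.P037B.Blow

/-!
# The quadruple form of the polynomial removal bound for a 2 x 2 pattern
-/

namespace Vale.Agent.Lib.P037G

open Vale.Agent.Lib.P037B

/-- The polynomial removal bound for the 2 x 2 pattern `H₀`, with copies counted as quadruples:
there are `c > 0` and `C` such that every `n x n` binary matrix `A` that differs from every
`H₀`-free matrix in at least `ε n²` entries has at least `c ε^C n⁴` ordered copies of `H₀`. -/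
def RemovalBound (H₀ : Fin 2 → Fin 2 → Bool) : Prop :=
  ∃ c : ℝ, 0 < c ∧ ∃ C : ℕ, ∀ (n : ℕ) (A : Fin n → Fin n → Bool) (ε : ℝ), 0 < ε → ε ≤ 1 →
    (∀ B : Fin n → Fin n → Bool, (∀ r1 r2 c1 c2, ¬ Quad H₀ B r1 r2 c1 c2) →
      ε * (n : ℝ) ^ 2 ≤ (entryDiff A B : ℝ)) →
    c * ε ^ C * (n : ℝ) ^ 4 ≤ (qcount H₀ A : ℝ)

end Vale.Agent.Lib.P037G
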