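import Mathlib
import Vale.Agent.Lib.P037G.Base
import Vale.Agent.Lib.P037B.SymCompl

/-!
# The removal bound is invariant under exchanging zeros and ones (`Base` form)
-/

namespace Vale.Agent.Lib.P037G

open Finset Vale.Agent.Lib.P037B

/-- `Base` is the same statement as `QRem`. -/
theorem base_iff_qrem (H0 : Fin 2 → Fin 2 → Bool) (c0 : ℝ) (C0 : ℕ) :
    Base H0 c0 C0 ↔ QRem H0 c0 C0 := Iff.rfl

/-- A removal bound for `H0` gives the same bound for the complementary pattern. -/
theorem base_negate (H0 : Fin 2 → Fin 2 → Bool) (c0 : ℝ) (C0 : ℕ) (h : Base H0 c0 C0) :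
    Base (negate H0) c0 C0 :=
  (base_iff_qrem (negate H0) c0 C0).mpr (qrem_compl ((base_iff_qrem H0 c0 C0).mp h))

end Vale.Agent.Lib.P037G
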